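import Vale.Agent.P088.R2.H960.W.Weyl2
import Vale.Agent.P088.R2.H960.W.Cmf

/-!
# Weighted `L²` methods: from a pointwise inequality to the estimate of zone A

The pointwise total form is `8 (TH + tc c + tc c') + qf` on `(A, B, a, b)`, with the covectors
`A, B` in the place of the dressed derivatives `X a`, `X b`.  If it dominates
`4 m (|A|² + |B|²) - η m (F a² + F' b²)`, if the fields are small and if `m Λ W + Γ(m, W)` is small
with respect to `m F`, then the commutator form dominates `2 ∫ m (|X a|² + |X b|²)` and the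
zero order terms `(1/3) ∫ m (F a² + F' b²)`.
-/

open MeasureTheory Set Filter
open scoped ContDiff Topology

noncomputable section

namespace Vale.Agent.P088.R2.H747.S

open Vale.Agent.P088.R2.H961.GW Vale.Agent.P088.R2.H644 Vale.Agent.P088.R2.H960.W

variable {E ι κ : Type*} [NormedAddCommGroup E] [NormedSpace ℝ E] [Fintype ι] [Fintype κ]

/-- `∑ s_ij (D_i f) A_j`. -/
def gA (σ : Sl E ι) (f : E → ℝ) (z : E) (A : ι → ℝ) : ℝ :=
  ∑ i, ∑ j, σ.s i j z * σ.D i f z * A j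

/-- The quantum part of the all-star form at a point. -/
def qf (σ : Sl E ι) (τ : Sl E κ) (v₁ v₂ W : E → ℝ) (z : E) (A : ι → ℝ) (B : κ → ℝ)
    (a b : ℝ) : ℝ :=
  -(8 * (Ch.G2 σ W z * a ^ 2 + 2 * (M2 σ τ W W z * (a * b)) + Ch.G2 τ W z * b ^ 2)) -
  8 * (a * gA σ (σ.Λ W) z A + b * gA σ (τ.Λ W) z A + a * gA τ (σ.Λ W) z B +
    b * gA τ (τ.Λ W) z B) +
  2 * (σ.Λ (σ.Λ W) z * a ^ 2 + 2 * (σ.Λ (τ.Λ W) z * (a * b)) + τ.Λ (τ.Λ W) z * b ^ 2) +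
  4 * (σ.Γ W v₁ z * a ^ 2 + τ.Γ W v₂ z * b ^ 2)

theorem qs_qf (σ : Sl E ι) (τ : Sl E κ) (v₁ v₂ W a b : E → ℝ) (z : E) :
    qs σ τ v₁ v₂ W a b z = qf σ τ v₁ v₂ W z (Ch.XX σ W a z) (Ch.XX τ W b z) (a z) (b z) := by
  unfold qs qf gA
  rw [Ch.X1_eq, Ch.X1_eq, Ch.X1_eq, Ch.X1_eq]

/-- `m |D a|² + m F a²`. -/
def mE (σ : Sl E ι) (m W a : E → ℝ) (z : E) : ℝ := m z * (σ.Γ a a z + σ.F W z * a z ^ 2)

/-- Smallness of the errors of one slot at a point. -/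
structure Sm1 (σ : Sl E ι) (W m : E → ℝ) (c : ι → E → ℝ) (v : E → ℝ) (η : ℝ) (z : E) : Prop where
  /-- the margin -/
  m0 : 0 ≤ m z
  /-- ellipticity -/
  up : ∀ A : ι → ℝ, ∑ i, ∑ j, σ.s i j z * A i * A j ≤ 2 * ∑ i, A i ^ 2
  lo : ∀ A : ι → ℝ, ∑ i, A i ^ 2 ≤ 2 * ∑ i, ∑ j, σ.s i j z * A i * A j
  /-- the weight -/
  w1 : |m z * σ.Λ W z + σ.Γ m W z| ≤ η * (m z * σ.F W z)
  /-- the divergence of `F c` -/
  f1 : |dF σ c W z| ≤ η * (m z * σ.F W z)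
  /-- the fields -/
  f2 : ∀ a : E → ℝ, |eC σ c v W a z| ≤ η * (m z * ∑ i, YY σ W a i z ^ 2)
  f3 : ∀ a : E → ℝ, cY σ c W a z ^ 2 ≤ η * η * (m z * ∑ i, YY σ W a i z ^ 2)

section pw

variable {σ : Sl E ι} {τ : Sl E κ} {U : Set E} {θ : E → ℝ} {v v₁ v₂ W f g h a b m : E → ℝ}
  {c : ι → E → ℝ} {c' : κ → E → ℝ} {z : E}

/-- `s(X, X) + s(Y, Y) = 2 Γ(a, a) + 2 F a²`. -/
theorem XY_F (σ : Sl E ι) (W a : E → ℝ) (z : E) :
    (∑ i, ∑ j, σ.s i j z * XX σ W a i z * XX σ W a j z) + sYY σ W a z =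
      2 * (σ.Γ a a z + σ.F W z * a z ^ 2) := by
  unfold sYY Sl.F Sl.Γ XX YY
  rw [mul_add, Finset.mul_sum, Finset.sum_mul, Finset.mul_sum, ← Finset.sum_add_distrib,
    ← Finset.sum_add_distrib]
  refine Finset.sum_congr rfl fun i _ => ?_
  rw [Finset.mul_sum, Finset.sum_mul, Finset.mul_sum, ← Finset.sum_add_distrib,
    ← Finset.sum_add_distrib]
  refine Finset.sum_congr rfl fun j _ => ?_
  ring

theorem tmE (ok : σ.Ok U θ) (hm : Sm U m) (hW : Sm U W) (ha : Te U a) : Te U (mE σ m W a) :=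
  ((ok.tG ha.sm ha).add ok.op ((ha.sq ok.op).mul_left ok.op (ok.sF hW))).mul_left ok.op hm

theorem tmY (ok : σ.Ok U θ) (hm : Sm U m) (hW : Sm U W) (ha : Te U a) :
    Te U fun z => m z * ∑ i, YY σ W a i z ^ 2 :=
  (Te.sum ok.op _ fun i _ => (tY ok hW ha i).sq ok.op).mul_left ok.op hm

theorem tmF (ok : σ.Ok U θ) (hm : Sm U m) (hW : Sm U W) (ha : Te U a) :
    Te U fun z => m z * σ.F W z * a z ^ 2 :=
  (ha.sq ok.op).mul_left ok.op (hm.mul (ok.sF hW))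

theorem tsX (ok : σ.Ok U θ) (hm : Sm U m) (hW : Sm U W) (ha : Te U a) :
    Te U fun z => m z * ∑ i, ∑ j, σ.s i j z * XX σ W a i z * XX σ W a j z :=
  (Te.sum ok.op _ fun i _ => Te.sum ok.op _ fun j _ =>
    (tX ok hW ha j).mul_left ok.op ((ok.ss i j).mul (tX ok hW ha i).sm)).mul_left ok.op hm

end pw

/-- The arithmetic at the end. -/
theorem fin_alg {η κ₀ T S P₁ P₂ X₁ X₂ F₁ F₂ E₁ E₂ Y₁ Y₂ d₁ d₂ e₁ e₂ C₁ C₂ Z : ℝ} (hη : 0 ≤ η)
    (hη1 : η ≤ 1 / 200) (hT : T = S + Z)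
    (hK : 4 * (X₁ + X₂) - η * (F₁ + F₂) ≤ Z + κ₀ * (P₁ + P₂) - 16 * (d₁ + d₂) -
      8 * (e₁ + e₂) + (C₁ + C₂))
    (hE1 : (1 - η) * E₁ ≤ 2 * X₁) (hE2 : (1 - η) * E₂ ≤ 2 * X₂) (hF1 : F₁ ≤ E₁) (hF2 : F₂ ≤ E₂)
    (f1 : 0 ≤ F₁) (f2 : 0 ≤ F₂) (y1 : Y₁ ≤ 4 * X₁ + 4 * η * F₁) (y2 : Y₂ ≤ 4 * X₂ + 4 * η * F₂)
    (dd1 : -(η * F₁) ≤ d₁) (dd2 : -(η * F₂) ≤ d₂) (ee1 : -(η * Y₁) ≤ e₁) (ee2 : -(η * Y₂) ≤ e₂)
    (cc1 : C₁ ≤ 16 * η * Y₁) (cc2 : C₂ ≤ 16 * η * Y₂) (x1 : 0 ≤ X₁) (x2 : 0 ≤ X₂)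
    (yy1 : 0 ≤ Y₁) (yy2 : 0 ≤ Y₂) :
    2 * (X₁ + X₂) + 1 / 3 * (E₁ + E₂) - κ₀ * (P₁ + P₂) ≤ T - S := by
  have g1 : 199 / 200 * E₁ ≤ 2 * X₁ :=
    (mul_le_mul_of_nonneg_right (by linarith) (f1.trans hF1)).trans hE1
  have g2 : 199 / 200 * E₂ ≤ 2 * X₂ :=
    (mul_le_mul_of_nonneg_right (by linarith) (f2.trans hF2)).trans hE2
  have l1 : η * F₁ ≤ 1 / 200 * F₁ := mul_le_mul_of_nonneg_right hη1 f1
  have l2 : η * F₂ ≤ 1 / 200 * F₂ := mul_le_mul_of_nonneg_right hη1 f2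
  have l3 : η * Y₁ ≤ 1 / 200 * Y₁ := mul_le_mul_of_nonneg_right hη1 yy1
  have l4 : η * Y₂ ≤ 1 / 200 * Y₂ := mul_le_mul_of_nonneg_right hη1 yy2
  linarith

/-! ## Integrals -/

variable [MeasureSpace E] [FiniteDimensional ℝ E] [BorelSpace E]
  [(volume : Measure E).IsAddHaarMeasure]

section integral

variable {σ : Sl E ι} {τ : Sl E κ} {U : Set E} {θ : E → ℝ} {v v₁ v₂ W f g h a b m : E → ℝ}
  {c : ι → E → ℝ} {c' : κ → E → ℝ} {η : ℝ}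

/-- The energy `∫ m (|D a|² + F a²)` and the weighted square of `X a`. -/
theorem en_X (ok : σ.Ok U θ) (hW : Sm U W) (ha : Te U a) (hm : Sm U m) :
    In U θ (mE σ m W a) =
      In U θ (fun z => m z * ∑ i, ∑ j, σ.s i j z * XX σ W a i z * XX σ W a j z) -
      In U θ (fun z => (m z * σ.Λ W z + σ.Γ m W z) * a z ^ 2) := by
  have hU := ok.op
  have e := YX_m ok hW ha hm
  have t1 := tsX ok hm hW ha
  have t2 : Te U fun z => m z * sYY σ W a z := (tsYY ok hW ha).mul_left hU hm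
  have e2 : In U θ (fun z => 2 * mE σ m W a z) = In U θ (fun z =>
      m z * (∑ i, ∑ j, σ.s i j z * XX σ W a i z * XX σ W a j z) + m z * sYY σ W a z) := by
    refine In_congr hU fun z _ => ?_
    have := XY_F σ W a z
    unfold mE
    linear_combination (-m z) * this
  rw [In_cmul, In_add hU ok.ts t1 t2, e] at e2
  linarith

/-- The bounds of the energies of one slot. -/
theorem en_le (ok : σ.Ok U θ) (hW : Sm U W) (ha : Te U a) (hm : Sm U m)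
    (hη : 0 ≤ η) (sm : ∀ z ∈ U, Sm1 σ W m c v η z) :
    (1 - η) * In U θ (mE σ m W a) ≤ 2 * In U θ (mX σ m W a) ∧
    In U θ (fun z => m z * σ.F W z * a z ^ 2) ≤ In U θ (mE σ m W a) ∧
    0 ≤ In U θ (fun z => m z * σ.F W z * a z ^ 2) ∧
    In U θ (fun z => m z * ∑ i, YY σ W a i z ^ 2) ≤
      4 * In U θ (mX σ m W a) + 4 * η * In U θ (fun z => m z * σ.F W z * a z ^ 2) := by
  have hU := ok.op
  have e := en_X ok hW ha hm
  have eY := YX_m ok hW ha hm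
  have tE := tmE ok hm hW ha
  have tF := tmF ok hm hW ha
  have tx := tsX ok hm hW ha
  have tX' := tmX ok hm hW ha
  have tYY := tmY ok hm hW ha
  have tw : Te U fun z => (m z * σ.Λ W z + σ.Γ m W z) * a z ^ 2 :=
    (ha.sq hU).mul_left hU ((hm.mul (ok.sL hW)).add (ok.sG hm hW))
  have gpos : ∀ z ∈ U, 0 ≤ σ.Γ a a z := by
    intro z hz
    have h := (sm z hz).lo fun i => σ.D i a z
    have h0 : 0 ≤ ∑ i, σ.D i a z ^ 2 := Finset.sum_nonneg fun i _ => sq_nonneg _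
    have e : σ.Γ a a z = ∑ i, ∑ j, σ.s i j z * σ.D i a z * σ.D j a z := rfl
    rw [e]; linarith
  have fpos : ∀ z ∈ U, 0 ≤ σ.F W z := by
    intro z hz
    have h := (sm z hz).lo fun i => σ.D i W z
    have h0 : 0 ≤ ∑ i, σ.D i W z ^ 2 := Finset.sum_nonneg fun i _ => sq_nonneg _
    have e : σ.F W z = ∑ i, ∑ j, σ.s i j z * σ.D i W z * σ.D j W z := rfl
    rw [e]; linarith
  have h1 : In U θ (fun z => m z * ∑ i, ∑ j, σ.s i j z * XX σ W a i z * XX σ W a j z) ≤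
      2 * In U θ (mX σ m W a) := by
    rw [← In_cmul]
    refine In_mono hU ok.tp ok.ts tx (tX'.cmul hU 2) fun z hz => ?_
    have := mul_le_mul_of_nonneg_left ((sm z hz).up fun i => XX σ W a i z) (sm z hz).m0
    unfold mX
    linarith
  have h2 : |In U θ (fun z => (m z * σ.Λ W z + σ.Γ m W z) * a z ^ 2)| ≤
      η * In U θ (fun z => m z * σ.F W z * a z ^ 2) := by
    rw [← In_cmul, abs_le, ← In_neg]
    constructor
    · refine In_mono hU ok.tp ok.ts ((tF.cmul hU η).neg hU) tw fun z hz => ?_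
      have := (abs_le.1 (sm z hz).w1).1
      nlinarith [sq_nonneg (a z), mul_le_mul_of_nonneg_right this (sq_nonneg (a z))]
    · refine In_mono hU ok.tp ok.ts tw (tF.cmul hU η) fun z hz => ?_
      have := (abs_le.1 (sm z hz).w1).2
      nlinarith [sq_nonneg (a z), mul_le_mul_of_nonneg_right this (sq_nonneg (a z))]
  have h3 : In U θ (fun z => m z * σ.F W z * a z ^ 2) ≤ In U θ (mE σ m W a) := by
    refine In_mono hU ok.tp ok.ts tF tE fun z hz => ?_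
    unfold mE
    have := mul_nonneg (sm z hz).m0 (gpos z hz)
    nlinarith
  have h4 : 0 ≤ In U θ (fun z => m z * σ.F W z * a z ^ 2) :=
    In_nonneg hU ok.tp fun z hz => mul_nonneg (mul_nonneg (sm z hz).m0 (fpos z hz)) (sq_nonneg _)
  have h5 : In U θ (fun z => m z * ∑ i, YY σ W a i z ^ 2) ≤
      2 * In U θ (fun z => m z * sYY σ W a z) := by
    rw [← In_cmul]
    refine In_mono hU ok.tp ok.ts tYY (((tsYY ok hW ha).mul_left hU hm).cmul hU 2) fun z hz => ?_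
    have := mul_le_mul_of_nonneg_left ((sm z hz).lo fun i => YY σ W a i z) (sm z hz).m0
    unfold sYY
    linarith
  obtain ⟨h2a, h2b⟩ := abs_le.1 h2
  refine ⟨?_, h3, h4, ?_⟩
  · have := mul_le_mul_of_nonneg_left h3 hη
    linarith
  · rw [eY] at h5
    linarith

/-- The errors of the fields. -/
theorem err_fd (ok : σ.Ok U θ) (hW : Sm U W) (hf : Te U f) (hd : ∀ i, Sm U (c i)) (hv : Sm U v)
    (hm : Sm U m) (smr : ∀ z ∈ U, Sm1 σ W m c v η z) :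
    -(η * In U θ (fun z => m z * σ.F W z * f z ^ 2)) ≤ In U θ (fun z => dF σ c W z * f z ^ 2) ∧
    -(η * In U θ (fun z => m z * ∑ i, YY σ W f i z ^ 2)) ≤ In U θ (eC σ c v W f) ∧
    In U θ (fun z => cY σ c W f z ^ 2) ≤
      η * η * In U θ (fun z => m z * ∑ i, YY σ W f i z ^ 2) := by
  have hU := ok.op
  have tF := tmF ok hm hW hf
  have tY' := tmY ok hm hW hf
  have sdF : Sm U (dF σ c W) := Sm.sum _ fun j _ =>
    (ok.sD ((ok.sF hW).mul (hd j)) j).add ((ok.ks j).mul ((ok.sF hW).mul (hd j)))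
  refine ⟨?_, ?_, ?_⟩
  · rw [← In_cmul, ← In_neg]
    refine In_mono hU ok.tp ok.ts ((tF.cmul hU η).neg hU) ((hf.sq hU).mul_left hU sdF)
      fun z hz => ?_
    have := (abs_le.1 (smr z hz).f1).1
    nlinarith [mul_le_mul_of_nonneg_right this (sq_nonneg (f z))]
  · rw [← In_cmul, ← In_neg]
    refine In_mono hU ok.tp ok.ts ((tY'.cmul hU η).neg hU) (teC ok hd hv hW hf)
      fun z hz => ?_
    exact (abs_le.1 ((smr z hz).f2 f)).1
  · rw [← In_cmul]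
    exact In_mono hU ok.tp ok.ts ((tcY ok hd hW hf).sq hU) (tY'.cmul hU (η * η))
      fun z hz => (smr z hz).f3 f

/-- **The estimate of zone A on a set where all bounds hold.** -/
theorem semA (ok : σ.Ok U θ) (ot : τ.Ok U θ) (cm : Cm σ τ U) (hv₁ : Sm U v₁)
    (hv₂ : Sm U v₂) (h₁ : ∀ z ∈ U, ∀ k, τ.D k v₁ z = 0) (h₂ : ∀ z ∈ U, ∀ i, σ.D i v₂ z = 0)
    (hW : Sm U W) (ha : Te U a) (hb : Te U b) (hc : ∀ i, Sm U (c i)) (hc' : ∀ i, Sm U (c' i))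
    {κ₀ : ℝ} (hκ : 0 < κ₀) (hm : Sm U m) (hη : 0 ≤ η) (hη1 : η ≤ 1 / 200) (hηκ : η ≤ κ₀)
    (sm₁ : ∀ z ∈ U, Sm1 σ W m c v₁ η z) (sm₂ : ∀ z ∈ U, Sm1 τ W m c' v₂ η z)
    (cert : ∀ z ∈ U, ∀ (A : ι → ℝ) (B : κ → ℝ) (x y : ℝ),
      4 * (m z * ((∑ i, A i ^ 2) + ∑ k, B k ^ 2)) -
        η * (m z * σ.F W z * x ^ 2 + m z * τ.F W z * y ^ 2) ≤
      8 * (Ch.TH σ τ W z A B + tc σ c W z A + tc τ c' W z B) + qf σ τ v₁ v₂ W z A B x y) :
    2 * (In U θ (mX σ m W a) + In U θ (mX τ m W b)) +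
      1 / 3 * (In U θ (mE σ m W a) + In U θ (mE τ m W b)) -
      κ₀ * (In U θ (fun z => σ.P v₁ W a z ^ 2) + In U θ (fun z => τ.P v₂ W b z ^ 2)) ≤
      TT σ τ U θ v₁ v₂ W a b - SQ σ τ U θ v₁ v₂ W a b := by
  have hU := ok.op
  have e := Ch.tstar ok ot cm hv₁ hv₂ h₁ h₂ hW ha hb
  have q := In_qs ok ot hv₁ hv₂ hW ha hb
  have w1 := weyl ok hv₁ hW ha hc hκ
  have w2 := weyl ot hv₂ hW hb hc' hκ
  have tT := Ch.tHH ok ot hW ha hb
  have t1 := tTC (c := c) ok hc hW fun i => tX ok hW ha i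
  have t2 := tTC (c := c') ot hc' hW fun i => tX ot hW hb i
  have tq := tqs ok ot hv₁ hv₂ hW ha hb
  have tF1 := tmF ok hm hW ha
  have tF2 := tmF ot hm hW hb
  have tx1 := tmX ok hm hW ha
  have tx2 := tmX ot hm hW hb
  have e1 : In U θ (fun z => Ch.TH σ τ W z (Ch.XX σ W a z) (Ch.XX τ W b z)) =
      In U θ (fun z => σ.Hd W a z + 2 * Md σ τ W a b z + τ.Hd W b z) :=
    In_congr hU fun z hz => Ch.TH_XX ok ot hW ha.sm hb.sm hz
  -- the pointwise inequality, integrated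
  have key : 4 * (In U θ (mX σ m W a) + In U θ (mX τ m W b)) -
      η * (In U θ (fun z => m z * σ.F W z * a z ^ 2) +
        In U θ (fun z => m z * τ.F W z * b z ^ 2)) ≤
      8 * (In U θ (fun z => Ch.TH σ τ W z (Ch.XX σ W a z) (Ch.XX τ W b z)) +
        In U θ (TC σ c W (XX σ W a)) + In U θ (TC τ c' W (XX τ W b))) +
      In U θ (qs σ τ v₁ v₂ W a b) := by
    rw [e1, ← In_add hU ok.ts tx1 tx2, ← In_add hU ok.ts tF1 tF2, ← In_add hU ok.ts tT t1,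
      ← In_add hU ok.ts (tT.add hU t1) t2, ← In_cmul, ← In_cmul, ← In_cmul,
      ← In_sub hU ok.ts ((tx1.add hU tx2).cmul hU 4) ((tF1.add hU tF2).cmul hU η),
      ← In_add hU ok.ts (((tT.add hU t1).add hU t2).cmul hU 8) tq]
    refine In_mono hU ok.tp ok.ts (((tx1.add hU tx2).cmul hU 4).sub hU
      ((tF1.add hU tF2).cmul hU η)) ((((tT.add hU t1).add hU t2).cmul hU 8).add hU tq)
      fun z hz => ?_
    have h := cert z hz (Ch.XX σ W a z) (Ch.XX τ W b z) (a z) (b z)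
    rw [Ch.TH_XX ok ot hW ha.sm hb.sm hz, mul_add, ← qs_qf] at h
    exact h
  obtain ⟨a1, a2, a3, a4⟩ := en_le ok hW ha hm hη sm₁
  obtain ⟨b1, b2, b3, b4⟩ := en_le ot hW hb hm hη sm₂
  obtain ⟨c1, c2, c3⟩ := err_fd ok hW ha hc hv₁ hm sm₁
  obtain ⟨d1, d2, d3⟩ := err_fd ot hW hb hc' hv₂ hm sm₂
  have hX1 : 0 ≤ In U θ (mX σ m W a) := In_nonneg hU ok.tp fun z hz =>
    mul_nonneg (sm₁ z hz).m0 (Finset.sum_nonneg fun i _ => sq_nonneg _)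
  have hX2 : 0 ≤ In U θ (mX τ m W b) := In_nonneg hU ok.tp fun z hz =>
    mul_nonneg (sm₂ z hz).m0 (Finset.sum_nonneg fun i _ => sq_nonneg _)
  have hk : ∀ Y C : ℝ, C ≤ η * η * Y → 0 ≤ Y → 16 / κ₀ * C ≤ 16 * η * Y := by
    intro Y C h h0
    have h' : 16 / κ₀ * C ≤ 16 / κ₀ * (η * η * Y) :=
      mul_le_mul_of_nonneg_left h (by positivity)
    have h2 : 16 / κ₀ * (η * η * Y) = 16 * η * Y * (η / κ₀) := by field_simp
    have h3 : η / κ₀ ≤ 1 := (div_le_one hκ).2 hηκ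
    have h4 : 16 * η * Y * (η / κ₀) ≤ 16 * η * Y * 1 :=
      mul_le_mul_of_nonneg_left h3 (by positivity)
    linarith
  have hY1 : 0 ≤ In U θ (fun z => m z * ∑ i, YY σ W a i z ^ 2) := In_nonneg hU ok.tp fun z hz =>
    mul_nonneg (sm₁ z hz).m0 (Finset.sum_nonneg fun i _ => sq_nonneg _)
  have hY2 : 0 ≤ In U θ (fun z => m z * ∑ i, YY τ W b i z ^ 2) := In_nonneg hU ok.tp fun z hz =>
    mul_nonneg (sm₂ z hz).m0 (Finset.sum_nonneg fun i _ => sq_nonneg _)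
  have k1 := hk _ _ c3 hY1
  have k2 := hk _ _ d3 hY2
  refine fin_alg hη hη1 (Z := 8 * In U θ (fun z => Ch.TH σ τ W z (Ch.XX σ W a z) (Ch.XX τ W b z)) +
    In U θ (qs σ τ v₁ v₂ W a b)) ?_ ?_ a1 b1 a2 b2 a3 b3 a4 b4 c1 d1 c2 d2 k1 k2 hX1 hX2 hY1 hY2
  · rw [e, q]
    unfold SQ
    ring
  · linarith only [key, w1, w2]
end integral

end Vale.Agent.P088.R2.H747.S
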