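import Vale.Agent.P088.R2.H747.S.SemW3

/-!
# Weighted `L²` methods: the weighted estimate of zone A with the margin `m s`

`semS`: the margin is `m (s(A, A) + s'(B, B))`.  `tot_near`: the pointwise total inequality from a
certificate and the smallness of the terms of order three and four.
-/

open MeasureTheory Set Filter
open scoped ContDiff Topology

noncomputable section

namespace Vale.Agent.P088.R2.H747.SW

open Vale.Agent.P088.R2.H961.GW Vale.Agent.P088.R2.H644 Vale.Agent.P088.R2.H960.W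

variable {E ι κ : Type*} [NormedAddCommGroup E] [NormedSpace ℝ E] [Fintype ι] [Fintype κ]

/-- `s(A, A)`. -/
def ss (σ : Sl E ι) (A : ι → ℝ) (z : E) : ℝ := ∑ i, ∑ j, σ.s i j z * A i * A j

/-- Smallness of the errors of one slot at a point, margin `m s`. -/
structure SmS (σ : Sl E ι) (W m : E → ℝ) (c : ι → E → ℝ) (v : E → ℝ) (η K : ℝ) (z : E) :
    Prop where
  /-- the margin -/
  m0 : 0 ≤ m z
  /-- the metric -/
  lo : ∀ A : ι → ℝ, ∑ i, A i ^ 2 ≤ 2 * ss σ A z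
  sK : ∀ A B : ι → ℝ,
    (∑ i, ∑ j, σ.s i j z * A i * B j) ^ 2 ≤ K ^ 2 * ((∑ i, A i ^ 2) * ∑ i, B i ^ 2)
  /-- the weight -/
  w1 : |m z * σ.Λ W z + σ.Γ m W z| ≤ η * (m z * σ.F W z)
  /-- the divergence of `F c` -/
  f1 : |dF σ c W z| ≤ η * (m z * σ.F W z)
  /-- the fields -/
  f2 : ∀ a : E → ℝ, |eC σ c v W a z| ≤ η * (1 / 2 * m z * Ys σ W a z)
  f3 : (2 + m z) * ∑ i, c i z ^ 2 ≤ η ^ 4 * (1 / 2 * m z ^ 2)

section pw

variable {σ : Sl E ι} {τ : Sl E κ} {U Ω S : Set E} {θ : E → ℝ}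
  {v v₁ v₂ W f g h a b m χ : E → ℝ} {c : ι → E → ℝ} {c' : κ → E → ℝ} {η K : ℝ} {z : E}

omit [NormedAddCommGroup E] [NormedSpace ℝ E] in
theorem qq_s (σ : Sl E ι) (m : E → ℝ) (A : ι → ℝ) (z : E) :
    qq (fun i j z => m z * σ.s i j z) A z = m z * ss σ A z := by
  unfold qq ss
  simp only [Finset.mul_sum]
  exact Finset.sum_congr rfl fun i _ => Finset.sum_congr rfl fun j _ => by ring

/-- The divergence of `m s DW`. -/
theorem dq_s (ok : σ.Ok U θ) (hW : Sm U W) (hm : Sm U m) (hz : z ∈ U) :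
    dq σ (fun i j z => m z * σ.s i j z) W z = m z * σ.Λ W z + σ.Γ m W z := by
  have hU := ok.op
  have d : ∀ j, σ.D j (fun z => ∑ i, m z * σ.s i j z * σ.D i W z) z =
      ∑ i, (σ.D j m z * σ.s i j z * σ.D i W z + m z * (σ.D j (σ.s i j) z * σ.D i W z) +
        m z * (σ.s i j z * σ.D j (σ.D i W) z)) := by
    intro j
    rw [D_sum σ hU _ (fun i _ => (hm.mul (ok.ss i j)).mul (ok.sD hW i)) j hz]
    refine Finset.sum_congr rfl fun i _ => ?_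
    rw [D_mul σ hU (hm.mul (ok.ss i j)) (ok.sD hW i) j hz, D_mul σ hU hm (ok.ss i j) j hz]
    ring
  have l : m z * σ.Λ W z = ∑ j, ∑ i, m z * (σ.s i j z * (σ.D j (σ.D i W) z +
      σ.k j z * σ.D i W z) + σ.D j (σ.s i j) z * σ.D i W z) := by
    unfold Sl.Λ
    simp only [Finset.mul_sum]
    exact Finset.sum_congr rfl fun j _ => Finset.sum_congr rfl fun i _ => by
      have : σ.s i j = σ.s j i := funext fun z => ok.sy i j z
      rw [this]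
  have g : σ.Γ m W z = ∑ j, ∑ i, σ.D j m z * σ.s i j z * σ.D i W z := by
    unfold Sl.Γ
    exact Finset.sum_congr rfl fun j _ => Finset.sum_congr rfl fun i _ => by
      rw [ok.sy i j]; ring
  unfold dq
  rw [l, g]
  simp only [d]
  have tot : ∑ j, (∑ i, (σ.D j m z * σ.s i j z * σ.D i W z +
        m z * (σ.D j (σ.s i j) z * σ.D i W z) + m z * (σ.s i j z * σ.D j (σ.D i W) z)) +
      σ.k j z * ∑ i, m z * σ.s i j z * σ.D i W z) =
      ∑ j, ∑ i, σ.D j m z * σ.s i j z * σ.D i W z +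
      ∑ j, ∑ i, m z * (σ.s i j z * (σ.D j (σ.D i W) z + σ.k j z * σ.D i W z) +
        σ.D j (σ.s i j) z * σ.D i W z) := by
    simp only [Finset.mul_sum, ← Finset.sum_add_distrib]
    exact Finset.sum_congr rfl fun j _ => Finset.sum_congr rfl fun i _ => by ring
  rw [tot]
  ring

theorem SmS.toQ (ok : σ.Ok U θ) (hW : Sm U W) (hm : Sm U m) (hz : z ∈ U)
    (s : SmS σ W m c v η K z) :
    SmQ σ W (fun i j z => m z * σ.s i j z) (fun z => 1 / 2 * m z) c v η K z where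
  m0 := by have := s.m0; positivity
  qm A := by
    rw [qq_s]
    have := mul_le_mul_of_nonneg_left (s.lo A) s.m0
    linarith
  sK := s.sK
  w1 := by
    rw [dq_s ok hW hm hz, qq_s]
    exact s.w1
  f1 := by
    rw [qq_s]
    exact s.f1
  f2 := s.f2
  f3 := by
    have := s.f3
    calc _ = 1 / 2 * ((2 + m z) * ∑ i, c i z ^ 2) := by ring
      _ ≤ 1 / 2 * (η ^ 4 * (1 / 2 * m z ^ 2)) := by gcongr
      _ = _ := by ring

/-- The certificate and the smallness of the terms of order three and four. -/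
structure Cert (σ : Sl E ι) (τ : Sl E κ) (v₁ v₂ W m : E → ℝ) (c : ι → E → ℝ) (c' : κ → E → ℝ)
    (ε : ℝ) (z : E) : Prop where
  ct : ∀ (A : ι → ℝ) (B : κ → ℝ), m z * (ss σ A z + ss τ B z) ≤
    Ch.TH σ τ W z A B + tc σ c W z A + tc τ c' W z B
  g1 : |Ch.G2 σ W z| ≤ ε * (m z * σ.F W z)
  g2 : |Ch.G2 τ W z| ≤ ε * (m z * τ.F W z)
  g3 : M2 σ τ W W z ^ 2 ≤ ε ^ 2 * (m z ^ 2 * (σ.F W z * τ.F W z))
  t1 : σ.Γ (σ.Λ W) (σ.Λ W) z ≤ ε * (m z ^ 2 * σ.F W z)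
  t2 : σ.Γ (τ.Λ W) (τ.Λ W) z ≤ ε * (m z ^ 2 * τ.F W z)
  t3 : τ.Γ (σ.Λ W) (σ.Λ W) z ≤ ε * (m z ^ 2 * σ.F W z)
  t4 : τ.Γ (τ.Λ W) (τ.Λ W) z ≤ ε * (m z ^ 2 * τ.F W z)
  l1 : |σ.Λ (σ.Λ W) z| ≤ ε * (m z * σ.F W z)
  l2 : |τ.Λ (τ.Λ W) z| ≤ ε * (m z * τ.F W z)
  l3 : σ.Λ (τ.Λ W) z ^ 2 ≤ ε ^ 2 * (m z ^ 2 * (σ.F W z * τ.F W z))
  p1 : σ.Γ W v₁ z = 0
  p2 : τ.Γ W v₂ z = 0

/-- Cauchy–Schwarz for `gA`. -/
theorem gA_le (hs : ∀ i j, σ.s i j z = σ.s j i z) (hp : ∀ A : ι → ℝ, 0 ≤ ss σ A z) (f : E → ℝ)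
    (A : ι → ℝ) : gA σ f z A ^ 2 ≤ σ.Γ f f z * ss σ A z := by
  have key : ∀ t : ℝ, 0 ≤ σ.Γ f f z * (t * t) + 2 * gA σ f z A * t + ss σ A z := by
    intro t
    have h := hp fun i => t * σ.D i f z + A i
    have e : gA σ f z A = ∑ i, ∑ j, σ.s i j z * A i * σ.D j f z := by
      unfold gA
      rw [Finset.sum_comm]
      exact Finset.sum_congr rfl fun i _ => Finset.sum_congr rfl fun j _ => by
        rw [hs j i]; ring
    have e2 : 2 * gA σ f z A * t = t * gA σ f z A + t * ∑ i, ∑ j, σ.s i j z * A i * σ.D j f z := by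
      rw [← e]; ring
    have e3 : ss σ (fun i => t * σ.D i f z + A i) z =
        σ.Γ f f z * (t * t) + 2 * gA σ f z A * t + ss σ A z := by
      rw [e2]
      unfold ss gA Sl.Γ
      simp only [Finset.sum_mul, Finset.mul_sum, ← Finset.sum_add_distrib]
      exact Finset.sum_congr rfl fun i _ => Finset.sum_congr rfl fun j _ => by ring
    rw [← e3]; exact h
  have := discrim_le_zero key
  unfold discrim at this
  nlinarith

theorem cross {g x F X ε m : ℝ} (hε : 0 ≤ ε) (hm : 0 ≤ m) (hF : 0 ≤ F) (hX : 0 ≤ X)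
    (h : g ^ 2 ≤ ε * (m ^ 2 * F) * X) : 8 * (x * g) ≤ m * X + 16 * (ε * (m * (F * x ^ 2))) := by
  have h1 : (8 * (x * g)) ^ 2 ≤ (m * X + 16 * (ε * (m * (F * x ^ 2)))) ^ 2 := by
    have h2 : (8 * (x * g)) ^ 2 ≤ 64 * (x ^ 2 * (ε * (m ^ 2 * F) * X)) := by
      have := mul_le_mul_of_nonneg_left h (sq_nonneg x)
      nlinarith
    nlinarith [sq_nonneg (m * X - 16 * (ε * (m * (F * x ^ 2))))]
  have h3 : 0 ≤ m * X + 16 * (ε * (m * (F * x ^ 2))) := by positivity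
  exact (abs_le_of_sq_le_sq' h1 h3).2

theorem mixed_le {M F F' x y ε m : ℝ} (hε : 0 ≤ ε) (hm : 0 ≤ m) (hF : 0 ≤ F) (hF' : 0 ≤ F')
    (h : M ^ 2 ≤ ε ^ 2 * (m ^ 2 * (F * F'))) :
    |2 * (M * (x * y))| ≤ ε * (m * (F * x ^ 2 + F' * y ^ 2)) := by
  refine abs_le_of_sq_le_sq ?_ (by positivity)
  have h1 : (2 * (M * (x * y))) ^ 2 ≤ 4 * (ε ^ 2 * (m ^ 2 * (F * F'))) * (x ^ 2 * y ^ 2) := by
    have := mul_le_mul_of_nonneg_right h (by positivity : 0 ≤ x ^ 2 * y ^ 2)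
    nlinarith
  have h2 : 4 * (ε ^ 2 * (m ^ 2 * (F * F'))) * (x ^ 2 * y ^ 2) ≤
      (ε * (m * (F * x ^ 2 + F' * y ^ 2))) ^ 2 := by
    have e : (ε * (m * (F * x ^ 2 + F' * y ^ 2))) ^ 2 -
        4 * (ε ^ 2 * (m ^ 2 * (F * F'))) * (x ^ 2 * y ^ 2) =
        (ε * (m * (F * x ^ 2 - F' * y ^ 2))) ^ 2 := by ring
    have := sq_nonneg (ε * (m * (F * x ^ 2 - F' * y ^ 2)))
    linarith
  exact h1.trans h2

/-- **The pointwise total inequality without a shift.** -/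
theorem tot_near {ε : ℝ} (hε : 0 ≤ ε) (hεη : 52 * ε ≤ η) (hm : 0 ≤ m z)
    (hs : ∀ i j, σ.s i j z = σ.s j i z) (ht : ∀ i j, τ.s i j z = τ.s j i z)
    (ps : ∀ A : ι → ℝ, 0 ≤ ss σ A z) (pt : ∀ B : κ → ℝ, 0 ≤ ss τ B z)
    (C : Cert σ τ v₁ v₂ W m c c' ε z) (A : ι → ℝ) (B : κ → ℝ) (x y : ℝ) :
    4 * (m z * ss σ A z + m z * ss τ B z) -
      η * (m z * σ.F W z * x ^ 2 + m z * τ.F W z * y ^ 2) ≤
    8 * (Ch.TH σ τ W z A B + tc σ c W z A + tc τ c' W z B) + qf σ τ v₁ v₂ W z A B x y := by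
  have hF : 0 ≤ σ.F W z := ps fun i => σ.D i W z
  have hF' : 0 ≤ τ.F W z := pt fun i => τ.D i W z
  have hA := ps A
  have hB := pt B
  set M := m z with hM
  set F := σ.F W z with hFd
  set F' := τ.F W z with hFd'
  have c0 := C.ct A B
  have a1 := (abs_le.1 C.g1).2
  have a2 := (abs_le.1 C.g2).2
  have a3 := mixed_le (x := x) (y := y) hε hm hF hF' C.g3
  have b1 := cross (x := x) hε hm hF hA ((gA_le hs ps _ A).trans
    (mul_le_mul_of_nonneg_right C.t1 hA))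
  have b2 := cross (x := y) hε hm hF' hA ((gA_le hs ps _ A).trans
    (mul_le_mul_of_nonneg_right C.t2 hA))
  have b3 := cross (x := x) hε hm hF hB ((gA_le ht pt _ B).trans
    (mul_le_mul_of_nonneg_right C.t3 hB))
  have b4 := cross (x := y) hε hm hF' hB ((gA_le ht pt _ B).trans
    (mul_le_mul_of_nonneg_right C.t4 hB))
  have d1 := (abs_le.1 C.l1).1
  have d2 := (abs_le.1 C.l2).1
  have d3 := mixed_le (x := x) (y := y) hε hm hF hF' C.l3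
  have e1 := mul_le_mul_of_nonneg_right a1 (sq_nonneg x)
  have e2 := mul_le_mul_of_nonneg_right a2 (sq_nonneg y)
  have e3 := (abs_le.1 a3).2
  have f1 := mul_le_mul_of_nonneg_right d1 (sq_nonneg x)
  have f2 := mul_le_mul_of_nonneg_right d2 (sq_nonneg y)
  have f3 := (abs_le.1 d3).1
  have z0 : 0 ≤ M * F * x ^ 2 + M * F' * y ^ 2 := by positivity
  have z1 := mul_le_mul_of_nonneg_right hεη z0
  have k : 0 ≤ M * ss σ A z + M * ss τ B z := by positivity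
  unfold qf
  rw [C.p1, C.p2]
  nlinarith

end pw

/-! ## Integrals -/

variable [MeasureSpace E] [FiniteDimensional ℝ E] [BorelSpace E]
  [(volume : Measure E).IsAddHaarMeasure]

section integral

variable {σ : Sl E ι} {τ : Sl E κ} {U Ω S : Set E} {θ : E → ℝ}
  {v v₁ v₂ W f g h a b m χ : E → ℝ} {c : ι → E → ℝ} {c' : κ → E → ℝ} {η K : ℝ}

/-- **The weighted estimate of zone A, margin `m s`.** -/
theorem semS (ok : σ.Ok U θ) (ot : τ.Ok U θ) (hv₁ : Sm U v₁) (hv₂ : Sm U v₂) (hW : Sm U W)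
    (ha : Te U a) (hb : Te U b) (hχ : Sm U χ) (hΩ : IsOpen Ω) (h : Ω ⊆ U) (hS : IsClosed S)
    (hSU : U ∩ S ⊆ Ω) (h0 : ∀ z ∈ U, z ∉ S → χ z = 0)
    (hc : ∀ i, Sm Ω (c i)) (hc' : ∀ i, Sm Ω (c' i)) (hm : Sm Ω m)
    {κ₀ : ℝ} (hκ : 0 < κ₀) (hη : 0 < η) (hη1 : η ≤ 1 / 200) (hηκ : η ≤ κ₀)
    (hK : 0 ≤ K) (hηK : 2 * K * η ≤ 1)
    (sm₁ : ∀ z ∈ Ω, SmS σ W m c v₁ η K z) (sm₂ : ∀ z ∈ Ω, SmS τ W m c' v₂ η K z)
    (cert : ∀ z ∈ Ω, ∀ (A : ι → ℝ) (B : κ → ℝ) (x y : ℝ),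
      4 * (m z * ss σ A z + m z * ss τ B z) -
        η * (m z * σ.F W z * x ^ 2 + m z * τ.F W z * y ^ 2) ≤
      8 * (Ch.TH σ τ W z A B + tc σ c W z A + tc τ c' W z B) + qf σ τ v₁ v₂ W z A B x y) :
    2 * (In U θ (fun z => χ z ^ 2 * (m z * ss σ (fun i => XX σ W a i z) z)) +
        In U θ (fun z => χ z ^ 2 * (m z * ss τ (fun i => XX τ W b i z) z))) +
      1 / 3 * (In U θ (fun z => χ z ^ 2 * (m z * (σ.Γ a a z + σ.F W z * a z ^ 2))) +
        In U θ (fun z => χ z ^ 2 * (m z * (τ.Γ b b z + τ.F W z * b z ^ 2)))) -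
      κ₀ * (In U θ (fun z => χ z ^ 2 * σ.P v₁ W a z ^ 2) +
        In U θ (fun z => χ z ^ 2 * τ.P v₂ W b z ^ 2)) -
      3 / η * (In U θ (fun z => m z * σ.Γ χ χ z * a z ^ 2) +
        In U θ (fun z => m z * τ.Γ χ χ z * b z ^ 2)) -
      16 * η * (In U θ (fun z => ro (fun z => 1 / 2 * m z) z * (∑ i, σ.D i χ z ^ 2) * (∑ i, σ.D i W z ^ 2) * a z ^ 2) +
        In U θ (fun z => ro (fun z => 1 / 2 * m z) z * (∑ i, τ.D i χ z ^ 2) * (∑ i, τ.D i W z ^ 2) * b z ^ 2) +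
        (In U θ (fun z => ro (fun z => 1 / 2 * m z) z * (∑ i, σ.D i χ z ^ 2) * Ys σ W a z) +
          In U θ (fun z => ro (fun z => 1 / 2 * m z) z * (∑ i, τ.D i χ z ^ 2) * Ys τ W b z))) ≤
      In U θ (fun z => χ z ^ 2 * sd σ τ v₁ v₂ W a b z) := by
  have ok' := Ok_mono ok hΩ h
  have ot' := Ok_mono ot hΩ h
  have e := semW (q := fun i j z => m z * σ.s i j z) (q' := fun i j z => m z * τ.s i j z)
    (m := fun z => 1 / 2 * m z) ok ot hv₁ hv₂ hW ha hb hχ hΩ h hS hSU h0 hc hc'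
    (fun i j => hm.mul (ok'.ss i j)) (fun i j z => by rw [ok.sy i j])
    (fun i j => hm.mul (ot'.ss i j)) (fun i j z => by rw [ot.sy i j]) (contDiffOn_const.mul hm)
    hκ hη hη1 hηκ hK hηK (fun z hz => (sm₁ z hz).toQ ok' (hW.mono h) hm hz)
    (fun z hz => (sm₂ z hz).toQ ot' (hW.mono h) hm hz) (fun z hz A B x y => by
      rw [qq_s, qq_s, qq_s, qq_s]
      exact cert z hz A B x y)
  have r1 : ∀ (u : ι → E → ℝ) (z : E), qq (fun i j z => m z * σ.s i j z) (fun i => u i z) z =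
      m z * ss σ (fun i => u i z) z := fun u z => qq_s σ m _ z
  have r2 : ∀ (u : κ → E → ℝ) (z : E), qq (fun i j z => m z * τ.s i j z) (fun i => u i z) z =
      m z * ss τ (fun i => u i z) z := fun u z => qq_s τ m _ z
  have r3 : ∀ z, qE σ (fun i j z => m z * σ.s i j z) W a z =
      m z * (σ.Γ a a z + σ.F W z * a z ^ 2) := fun z => by
    unfold qE
    rw [qq_s, qq_s]
    unfold ss Sl.F Sl.Γ
    ring
  have r4 : ∀ z, qE τ (fun i j z => m z * τ.s i j z) W b z =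
      m z * (τ.Γ b b z + τ.F W z * b z ^ 2) := fun z => by
    unfold qE
    rw [qq_s, qq_s]
    unfold ss Sl.F Sl.Γ
    ring
  have r5 : ∀ z, ss σ (fun i => σ.D i χ z) z = σ.Γ χ χ z := fun z => rfl
  have r6 : ∀ z, ss τ (fun i => τ.D i χ z) z = τ.Γ χ χ z := fun z => rfl
  simp only [r3, r4, qq_s, r5, r6] at e
  exact e

end integral

end Vale.Agent.P088.R2.H747.SW
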