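import Vale.Agent.P088.R2.H747.S.SemS
import Vale.Agent.P088.R2.H551.E.Cur

/-!
# P088, stage 3: zone A in the common form of the zone inequalities

`zoneA`: the pointwise total inequality and the smallness of the errors of both slots on `Ω` give
`Zone σ τ U θ v₁ v₂ W χ (χ² MA) coA`.  The margin `MA` has the coefficients
`κ = 1 - κ₀`, `ζ₁ = ζ₂ = m`, `w₁ = m F / 3`, `w₂ = m F' / 3`; the cost `coA` lives where `D χ ≠ 0`.
-/

open MeasureTheory Set Filter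
open scoped ContDiff Topology

noncomputable section

namespace Vale.Agent.P088.R2.H747.SW

open Vale.Agent.P088.R2.H961.GW Vale.Agent.P088.R2.H644 Vale.Agent.P088.R2.H960.W
open Vale.Agent.P088.R2.H551.E

variable {E ι : Type*} [NormedAddCommGroup E] [NormedSpace ℝ E] [Fintype ι]

/-- The margin of zone A (without the factor `χ²`). -/
def MA (σ τ : Sl E ι) (W m : E → ℝ) (κ₀ : ℝ) : Q8 E where
  κ _ := 1 - κ₀
  ζ₁ z := m z
  ζ₂ z := m z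
  ζy _ := 0
  w₁ z := 1 / 3 * (m z * σ.F W z)
  w₂ z := 1 / 3 * (m z * τ.F W z)
  wb _ := 0
  wc _ := 0

/-- `m / (2 + m)`. -/
def rh (m : E → ℝ) (z : E) : ℝ := m z / (2 + m z)

/-- The cost of zone A. -/
def coA (σ τ : Sl E ι) (W m χ : E → ℝ) (η : ℝ) : Q8 E where
  κ _ := 0
  ζ₁ z := 32 * η * (rh m z * ∑ i, σ.D i χ z ^ 2)
  ζ₂ z := 32 * η * (rh m z * ∑ i, τ.D i χ z ^ 2)
  ζy _ := 0
  w₁ z := 3 / η * (m z * σ.Γ χ χ z) +
    144 * η * (rh m z * (∑ i, σ.D i χ z ^ 2) * ∑ i, σ.D i W z ^ 2)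
  w₂ z := 3 / η * (m z * τ.Γ χ χ z) +
    144 * η * (rh m z * (∑ i, τ.D i χ z ^ 2) * ∑ i, τ.D i W z ^ 2)
  wb _ := 0
  wc _ := 0

variable {σ τ : Sl E ι} {U Ω S : Set E} {θ : E → ℝ} {v v₁ v₂ W f g h a b m χ : E → ℝ}
  {c c' : ι → E → ℝ} {η K κ₀ : ℝ}

/-- A function which is smooth on `Ω` and vanishes off `S`, `U ∩ S ⊆ Ω`, is smooth on `U`. -/
theorem sm_cut (hU : IsOpen U) (hΩ : IsOpen Ω) (hS : IsClosed S) (hSU : U ∩ S ⊆ Ω)
    (hg : Sm Ω g) (h0 : ∀ z ∈ U, z ∉ S → g z = 0) : Sm U g := by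
  intro z hz
  by_cases hs : z ∈ S
  · exact (hg.contDiffAt (hΩ.mem_nhds (hSU ⟨hz, hs⟩))).contDiffWithinAt
  · have : g =ᶠ[𝓝 z] fun _ => (0 : ℝ) := by
      filter_upwards [hU.mem_nhds hz, hS.isOpen_compl.mem_nhds hs] with w hw hw'
      exact h0 w hw hw'
    exact (contDiffAt_const.congr_of_eventuallyEq this).contDiffWithinAt

omit [Fintype ι] in
theorem Dz (hU : IsOpen U) (hS : IsClosed S) (h0 : ∀ z ∈ U, z ∉ S → χ z = 0) :
    ∀ z ∈ U, z ∉ S → ∀ i, σ.D i χ z = 0 := by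
  intro z hz hs i
  have : χ =ᶠ[𝓝 z] fun _ => (0 : ℝ) := by
    filter_upwards [hU.mem_nhds hz, hS.isOpen_compl.mem_nhds hs] with w hw hw'
    exact h0 w hw hw'
  rw [D_congr_nhds σ this i, D_const]

theorem Gz (hU : IsOpen U) (hS : IsClosed S) (h0 : ∀ z ∈ U, z ∉ S → χ z = 0) :
    ∀ z ∈ U, z ∉ S → σ.Γ χ χ z = 0 := by
  intro z hz hs
  unfold Sl.Γ
  simp [Dz (σ := σ) hU hS h0 z hz hs]

omit [NormedAddCommGroup E] [NormedSpace ℝ E] [Fintype ι] in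
theorem ro_half {z : E} (h : 0 ≤ m z) : ro (fun z => 1 / 2 * m z) z = rh m z := by
  unfold ro rh
  field_simp

omit [NormedAddCommGroup E] [NormedSpace ℝ E] [Fintype ι] in
theorem rh_nonneg {z : E} (h : 0 ≤ m z) : 0 ≤ rh m z := by unfold rh; positivity

omit [Fintype ι] in
theorem srh (hm : Sm Ω m) (hp : ∀ z ∈ Ω, 0 ≤ m z) : Sm Ω (rh m) :=
  hm.div (contDiffOn_const.add hm) fun z hz => by
    have := hp z hz
    positivity

/-- `|Y a|² ≤ 2 |X a|² + 8 |D W|² a²`. -/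
theorem Ys_le (σ : Sl E ι) (W a : E → ℝ) (z : E) :
    Ys σ W a z ≤ 2 * nX σ W a z + 8 * ((∑ i, σ.D i W z ^ 2) * a z ^ 2) := by
  unfold Ys nX YY Ch.XX
  rw [Finset.sum_mul, Finset.mul_sum, Finset.mul_sum, ← Finset.sum_add_distrib]
  refine Finset.sum_le_sum fun i _ => ?_
  nlinarith [sq_nonneg (3 * (a z * σ.D i W z) - σ.D i a z)]

/-! ## Integrals -/

/-- Continuity of the margin. -/
theorem MA_ct (ok : σ.Ok U θ) (ot : τ.Ok U θ) (hW : Sm U W) (hχ : Sm U χ) (hΩ : IsOpen Ω)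
    (h : Ω ⊆ U) (hS : IsClosed S) (hSU : U ∩ S ⊆ Ω) (h0 : ∀ z ∈ U, z ∉ S → χ z = 0)
    (hm : Sm Ω m) : ((MA σ τ W m κ₀).sm fun z => χ z ^ 2).Ct U := by
  have hU := ok.op
  have hc : Sm U fun z => χ z ^ 2 := hχ.pow 2
  have h1 : Sm U fun z => χ z ^ 2 * m z :=
    sm_cut hU hΩ hS hSU ((hc.mono h).mul hm) fun z hz hs => by rw [h0 z hz hs]; ring
  have h2 : Sm U (σ.F W) := ok.sG hW hW
  have h3 : Sm U (τ.F W) := ot.sG hW hW
  refine ⟨(hc.mul contDiffOn_const).continuousOn, h1.continuousOn, h1.continuousOn,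
    (hc.mul contDiffOn_const).continuousOn, ?_, ?_, (hc.mul contDiffOn_const).continuousOn,
    (hc.mul contDiffOn_const).continuousOn⟩
  · have : Sm U fun z => 1 / 3 * ((χ z ^ 2 * m z) * σ.F W z) :=
      contDiffOn_const.mul (h1.mul h2)
    refine this.continuousOn.congr fun z _ => ?_
    simp only [Q8.sm, MA, Pi.mul_apply]
    ring
  · have : Sm U fun z => 1 / 3 * ((χ z ^ 2 * m z) * τ.F W z) :=
      contDiffOn_const.mul (h1.mul h3)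
    refine this.continuousOn.congr fun z _ => ?_
    simp only [Q8.sm, MA, Pi.mul_apply]
    ring

theorem sDs (ok : σ.Ok U θ) (hf : Sm U f) : Sm U fun z => ∑ i, σ.D i f z ^ 2 :=
  ContDiffOn.sum fun i _ => (ok.sD hf i).pow 2

theorem smR (ok : σ.Ok U θ) (hχ : Sm U χ) (hΩ : IsOpen Ω)
    (h : Ω ⊆ U) (hS : IsClosed S) (hSU : U ∩ S ⊆ Ω) (h0 : ∀ z ∈ U, z ∉ S → χ z = 0)
    (hm : Sm Ω m) (hp : ∀ z ∈ Ω, 0 ≤ m z) : Sm U fun z => rh m z * ∑ i, σ.D i χ z ^ 2 :=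
  sm_cut ok.op hΩ hS hSU ((srh hm hp).mul ((sDs ok hχ).mono h)) fun z hz hs => by
    simp [Dz (σ := σ) ok.op hS h0 z hz hs]

theorem smG (ok : σ.Ok U θ) (hχ : Sm U χ) (hΩ : IsOpen Ω)
    (h : Ω ⊆ U) (hS : IsClosed S) (hSU : U ∩ S ⊆ Ω) (h0 : ∀ z ∈ U, z ∉ S → χ z = 0)
    (hm : Sm Ω m) : Sm U fun z => m z * σ.Γ χ χ z :=
  sm_cut ok.op hΩ hS hSU (hm.mul ((ok.sG hχ hχ).mono h)) fun z hz hs => by
    rw [Gz (σ := σ) ok.op hS h0 z hz hs]; ring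

/-- Continuity of the cost. -/
theorem coA_ct (ok : σ.Ok U θ) (ot : τ.Ok U θ) (hW : Sm U W) (hχ : Sm U χ) (hΩ : IsOpen Ω)
    (h : Ω ⊆ U) (hS : IsClosed S) (hSU : U ∩ S ⊆ Ω) (h0 : ∀ z ∈ U, z ∉ S → χ z = 0)
    (hm : Sm Ω m) (hp : ∀ z ∈ Ω, 0 ≤ m z) : (coA σ τ W m χ η).Ct U := by
  have r1 := smR ok hχ hΩ h hS hSU h0 hm hp
  have r2 := smR ot hχ hΩ h hS hSU h0 hm hp
  refine ⟨continuousOn_const, ?_, ?_, continuousOn_const, ?_, ?_, continuousOn_const,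
    continuousOn_const⟩
  · exact (contDiffOn_const.mul r1).continuousOn
  · exact (contDiffOn_const.mul r2).continuousOn
  · exact ((contDiffOn_const.mul (smG ok hχ hΩ h hS hSU h0 hm)).add
      (contDiffOn_const.mul (r1.mul (sDs ok hW)))).continuousOn
  · exact ((contDiffOn_const.mul (smG ot hχ hΩ h hS hSU h0 hm)).add
      (contDiffOn_const.mul (r2.mul (sDs ot hW)))).continuousOn

variable [MeasureSpace E] [FiniteDimensional ℝ E] [BorelSpace E]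
  [(volume : Measure E).IsAddHaarMeasure]

/-- **Zone A in the common form.** -/
theorem zoneA (ok : σ.Ok U θ) (ot : τ.Ok U θ) (hv₁ : Sm U v₁) (hv₂ : Sm U v₂) (hW : Sm U W)
    (hχ : Sm U χ) (hΩ : IsOpen Ω) (h : Ω ⊆ U) (hS : IsClosed S)
    (hSU : U ∩ S ⊆ Ω) (h0 : ∀ z ∈ U, z ∉ S → χ z = 0)
    (hc : ∀ i, Sm Ω (c i)) (hc' : ∀ i, Sm Ω (c' i)) (hm : Sm Ω m)
    (hκ : 0 < κ₀) (hη : 0 < η) (hη1 : η ≤ 1 / 200) (hηκ : η ≤ κ₀)
    (hK : 0 ≤ K) (hηK : 2 * K * η ≤ 1)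
    (sm₁ : ∀ z ∈ Ω, SmS σ W m c v₁ η K z) (sm₂ : ∀ z ∈ Ω, SmS τ W m c' v₂ η K z)
    (cert : ∀ z ∈ Ω, ∀ (A : ι → ℝ) (B : ι → ℝ) (x y : ℝ),
      4 * (m z * ss σ A z + m z * ss τ B z) -
        η * (m z * σ.F W z * x ^ 2 + m z * τ.F W z * y ^ 2) ≤
      8 * (Ch.TH σ τ W z A B + tc σ c W z A + tc τ c' W z B) + qf σ τ v₁ v₂ W z A B x y) :
    Zone σ τ U θ v₁ v₂ W χ ((MA σ τ W m κ₀).sm fun z => χ z ^ 2) (coA σ τ W m χ η) := by
  intro a b ha hb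
  have hU := ok.op
  have main := semS ok ot hv₁ hv₂ hW ha hb hχ hΩ h hS hSU h0 hc hc' hm hκ hη hη1 hηκ hK hηK
    sm₁ sm₂ cert
  have hp : ∀ z ∈ Ω, 0 ≤ m z := fun z hz => (sm₁ z hz).m0
  have r1 := smR ok hχ hΩ h hS hSU h0 hm hp
  have r2 := smR ot hχ hΩ h hS hSU h0 hm hp
  have hc2 : Sm U fun z => χ z ^ 2 := hχ.pow 2
  have h1 : Sm U fun z => χ z ^ 2 * m z :=
    sm_cut hU hΩ hS hSU ((hc2.mono h).mul hm) fun z hz hs => by rw [h0 z hz hs]; ring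
  have tsx : Te U fun z => ss σ (fun i => XX σ W a i z) z :=
    tqq ok ok.ss fun i => tX ok hW ha i
  have tsy : Te U fun z => ss τ (fun i => XX τ W b i z) z :=
    tqq ot ot.ss fun i => tX ot hW hb i
  have f1 : Te U fun z => χ z ^ 2 * (m z * ss σ (fun i => XX σ W a i z) z) :=
    (tsx.mul_left hU h1).congr fun z => by ring
  have f2 : Te U fun z => χ z ^ 2 * (m z * ss τ (fun i => XX τ W b i z) z) :=
    (tsy.mul_left hU h1).congr fun z => by ring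
  have g1 : Te U fun z => σ.Γ a a z + σ.F W z * a z ^ 2 :=
    (ok.tG ha.sm ha).add hU ((ha.sq hU).mul_left hU (ok.sG hW hW))
  have g2 : Te U fun z => τ.Γ b b z + τ.F W z * b z ^ 2 :=
    (ot.tG hb.sm hb).add hU ((hb.sq hU).mul_left hU (ot.sG hW hW))
  have f3 : Te U fun z => χ z ^ 2 * (m z * (σ.Γ a a z + σ.F W z * a z ^ 2)) :=
    (g1.mul_left hU h1).congr fun z => by ring
  have f4 : Te U fun z => χ z ^ 2 * (m z * (τ.Γ b b z + τ.F W z * b z ^ 2)) :=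
    (g2.mul_left hU h1).congr fun z => by ring
  have f5 : Te U fun z => χ z ^ 2 * σ.P v₁ W a z ^ 2 :=
    ((ok.tP hv₁ hW ha).sq hU).mul_left hU hc2
  have f6 : Te U fun z => χ z ^ 2 * τ.P v₂ W b z ^ 2 :=
    ((ot.tP hv₂ hW hb).sq hU).mul_left hU hc2
  have f7 : Te U fun z => m z * σ.Γ χ χ z * a z ^ 2 :=
    (ha.sq hU).mul_left hU (smG ok hχ hΩ h hS hSU h0 hm)
  have f8 : Te U fun z => m z * τ.Γ χ χ z * b z ^ 2 :=
    (hb.sq hU).mul_left hU (smG ot hχ hΩ h hS hSU h0 hm)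
  have f9 : Te U fun z => rh m z * (∑ i, σ.D i χ z ^ 2) * (∑ i, σ.D i W z ^ 2) * a z ^ 2 :=
    (ha.sq hU).mul_left hU (r1.mul (sDs ok hW))
  have f10 : Te U fun z => rh m z * (∑ i, τ.D i χ z ^ 2) * (∑ i, τ.D i W z ^ 2) * b z ^ 2 :=
    (hb.sq hU).mul_left hU (r2.mul (sDs ot hW))
  have f11 : Te U fun z => rh m z * (∑ i, σ.D i χ z ^ 2) * Ys σ W a z :=
    (Te.sum hU _ fun i _ => (tY ok hW ha i).sq hU).mul_left hU r1
  have f12 : Te U fun z => rh m z * (∑ i, τ.D i χ z ^ 2) * Ys τ W b z :=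
    (Te.sum hU _ fun i _ => (tY ot hW hb i).sq hU).mul_left hU r2
  have eR : ∀ f : E → ℝ, In U θ (fun z => ro (fun z => 1 / 2 * m z) z *
      (∑ i, σ.D i χ z ^ 2) * f z) = In U θ (fun z => rh m z * (∑ i, σ.D i χ z ^ 2) * f z) := by
    intro f
    refine In_congr hU fun z hz => ?_
    by_cases hs : z ∈ S
    · rw [ro_half (hp z (hSU ⟨hz, hs⟩))]
    · simp [Dz (σ := σ) hU hS h0 z hz hs]
  have eR' : ∀ f : E → ℝ, In U θ (fun z => ro (fun z => 1 / 2 * m z) z *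
      (∑ i, τ.D i χ z ^ 2) * f z) = In U θ (fun z => rh m z * (∑ i, τ.D i χ z ^ 2) * f z) := by
    intro f
    refine In_congr hU fun z hz => ?_
    by_cases hs : z ∈ S
    · rw [ro_half (hp z (hSU ⟨hz, hs⟩))]
    · simp [Dz (σ := τ) hU hS h0 z hz hs]
  have g9 : In U θ (fun z => ro (fun z => 1 / 2 * m z) z * (∑ i, σ.D i χ z ^ 2) *
      (∑ i, σ.D i W z ^ 2) * a z ^ 2) = In U θ (fun z => rh m z * (∑ i, σ.D i χ z ^ 2) *
      (∑ i, σ.D i W z ^ 2) * a z ^ 2) := by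
    have := eR fun z => (∑ i, σ.D i W z ^ 2) * a z ^ 2
    simpa only [mul_assoc] using this
  have g10 : In U θ (fun z => ro (fun z => 1 / 2 * m z) z * (∑ i, τ.D i χ z ^ 2) *
      (∑ i, τ.D i W z ^ 2) * b z ^ 2) = In U θ (fun z => rh m z * (∑ i, τ.D i χ z ^ 2) *
      (∑ i, τ.D i W z ^ 2) * b z ^ 2) := by
    have := eR' fun z => (∑ i, τ.D i W z ^ 2) * b z ^ 2
    simpa only [mul_assoc] using this
  rw [g9, g10, eR, eR'] at main
  have fg : Te U fun z => χ z ^ 2 * sqd σ τ v₁ v₂ W a b z :=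
    (tsqd ok ot hv₁ hv₂ hW ha hb).mul_left hU hc2
  have fs : Te U fun z => χ z ^ 2 * sta σ τ v₁ v₂ W a b z :=
    (tsta ok ot hv₁ hv₂ hW ha hb).mul_left hU hc2
  have e0 : In U θ (fun z => χ z ^ 2 * dn σ τ v₁ v₂ W a b z) =
      In U θ (fun z => χ z ^ 2 * sqd σ τ v₁ v₂ W a b z) +
      In U θ (fun z => χ z ^ 2 * sta σ τ v₁ v₂ W a b z) := by
    rw [← In_add hU ok.ts fg fs]
    exact In_congr hU fun z _ => by unfold dn; ring
  have e1 := In_add hU ok.ts f1 f2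
  have e2 := In_add hU ok.ts f3 f4
  have e3 := In_add hU ok.ts f5 f6
  have e4 := In_add hU ok.ts f7 f8
  have e5 := In_add hU ok.ts (f9.add hU f10) (f11.add hU f12)
  have e6 := In_add hU ok.ts f9 f10
  have e7 := In_add hU ok.ts f11 f12
  set T := fun z => χ z ^ 2 * sqd σ τ v₁ v₂ W a b z +
    (2 * (χ z ^ 2 * (m z * ss σ (fun i => XX σ W a i z) z) +
      χ z ^ 2 * (m z * ss τ (fun i => XX τ W b i z) z)) +
    (1 / 3 * (χ z ^ 2 * (m z * (σ.Γ a a z + σ.F W z * a z ^ 2)) +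
      χ z ^ 2 * (m z * (τ.Γ b b z + τ.F W z * b z ^ 2))) +
    ((-κ₀) * (χ z ^ 2 * σ.P v₁ W a z ^ 2 + χ z ^ 2 * τ.P v₂ W b z ^ 2) +
    ((-(3 / η)) * (m z * σ.Γ χ χ z * a z ^ 2 + m z * τ.Γ χ χ z * b z ^ 2) +
    (-(16 * η)) * (rh m z * (∑ i, σ.D i χ z ^ 2) * (∑ i, σ.D i W z ^ 2) * a z ^ 2 +
        rh m z * (∑ i, τ.D i χ z ^ 2) * (∑ i, τ.D i W z ^ 2) * b z ^ 2 +
        (rh m z * (∑ i, σ.D i χ z ^ 2) * Ys σ W a z +
          rh m z * (∑ i, τ.D i χ z ^ 2) * Ys τ W b z)))))) with hT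
  have k5 := ((f9.add hU f10).add hU (f11.add hU f12)).cmul hU (-(16 * η))
  have k4 := (f7.add hU f8).cmul hU (-(3 / η))
  have k3 := (f5.add hU f6).cmul hU (-κ₀)
  have k2 := (f3.add hU f4).cmul hU (1 / 3)
  have k1 := (f1.add hU f2).cmul hU 2
  have tT : Te U T := fg.add hU (k1.add hU (k2.add hU (k3.add hU (k4.add hU k5))))
  have eT : In U θ T ≤ In U θ (fun z => χ z ^ 2 * dn σ τ v₁ v₂ W a b z) := by
    have := In_add hU ok.ts fg (k1.add hU (k2.add hU (k3.add hU (k4.add hU k5))))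
    rw [In_add hU ok.ts k1 (k2.add hU (k3.add hU (k4.add hU k5))),
      In_add hU ok.ts k2 (k3.add hU (k4.add hU k5)), In_add hU ok.ts k3 (k4.add hU k5),
      In_add hU ok.ts k4 k5, In_cmul, In_cmul, In_cmul, In_cmul, In_cmul, e1, e2, e3, e4, e5,
      e6, e7] at this
    have es : In U θ (fun z => χ z ^ 2 * sta σ τ v₁ v₂ W a b z) =
      In U θ (fun z => χ z ^ 2 * sd σ τ v₁ v₂ W a b z) := rfl
    rw [e0, es, hT, this]
    linarith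
  refine le_trans ?_ eT
  have cM := Q8.int_dens ok ot hv₁ hv₂ hW ha hb (MA_ct (κ₀ := κ₀) ok ot hW hχ hΩ h hS hSU h0 hm)
  have cC := Q8.int_dens ok ot hv₁ hv₂ hW ha hb (coA_ct (η := η) ok ot hW hχ hΩ h hS hSU h0 hm hp)
  have es : In U θ (((MA σ τ W m κ₀).sm fun z => χ z ^ 2).dens σ τ v₁ v₂ W a b) -
      In U θ ((coA σ τ W m χ η).dens σ τ v₁ v₂ W a b) =
      ∫ z in U, (θ z * ((MA σ τ W m κ₀).sm fun z => χ z ^ 2).dens σ τ v₁ v₂ W a b z -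
        θ z * (coA σ τ W m χ η).dens σ τ v₁ v₂ W a b z) := by
    unfold In
    rw [integral_sub cM cC]
  rw [es]
  refine setIntegral_mono_on (cM.sub cC) (te_int hU ok.ts tT) hU.measurableSet fun z hz => ?_
  rw [← mul_sub]
  refine mul_le_mul_of_nonneg_left ?_ (ok.tp z hz).le
  have nD : 0 ≤ ∑ i, σ.D i χ z ^ 2 := Finset.sum_nonneg fun _ _ => sq_nonneg _
  have nD' : 0 ≤ ∑ i, τ.D i χ z ^ 2 := Finset.sum_nonneg fun _ _ => sq_nonneg _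
  have R1 : 0 ≤ rh m z * ∑ i, σ.D i χ z ^ 2 := by
    by_cases hs : z ∈ S
    · exact mul_nonneg (rh_nonneg (hp z (hSU ⟨hz, hs⟩))) nD
    · simp [Dz (σ := σ) hU hS h0 z hz hs]
  have R2 : 0 ≤ rh m z * ∑ i, τ.D i χ z ^ 2 := by
    by_cases hs : z ∈ S
    · exact mul_nonneg (rh_nonneg (hp z (hSU ⟨hz, hs⟩))) nD'
    · simp [Dz (σ := τ) hU hS h0 z hz hs]
  have y1 := mul_le_mul_of_nonneg_left (Ys_le σ W a z) (mul_nonneg hη.le R1)
  have y2 := mul_le_mul_of_nonneg_left (Ys_le τ W b z) (mul_nonneg hη.le R2)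
  have y3 : 0 ≤ χ z ^ 2 * (κ₀ * (τ.P v₂ W a z ^ 2 + σ.P v₁ W b z ^ 2)) := by positivity
  have y4 : χ z ^ 2 * (m z * nX σ W a z) ≤
        χ z ^ 2 * (2 * (m z * ss σ (fun i => XX σ W a i z) z)) ∧
      χ z ^ 2 * (m z * nX τ W b z) ≤
        χ z ^ 2 * (2 * (m z * ss τ (fun i => XX τ W b i z) z)) ∧
      0 ≤ χ z ^ 2 * (m z * σ.Γ a a z) ∧ 0 ≤ χ z ^ 2 * (m z * τ.Γ b b z) := by
    by_cases hs : z ∈ S
    · have hz' := hSU ⟨hz, hs⟩
      have s1 := sm₁ z hz'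
      have s2 := sm₂ z hz'
      refine ⟨mul_le_mul_of_nonneg_left ?_ (sq_nonneg _),
        mul_le_mul_of_nonneg_left ?_ (sq_nonneg _), mul_nonneg (sq_nonneg _)
        (mul_nonneg s1.m0 ?_), mul_nonneg (sq_nonneg _) (mul_nonneg s1.m0 ?_)⟩
      · have := mul_le_mul_of_nonneg_left (s1.lo fun i => XX σ W a i z) s1.m0
        unfold nX
        calc _ ≤ _ := this
          _ = _ := by ring
      · have := mul_le_mul_of_nonneg_left (s2.lo fun i => XX τ W b i z) s1.m0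
        unfold nX
        calc _ ≤ _ := this
          _ = _ := by ring
      · have := s1.lo fun i => σ.D i a z
        have h3 : 0 ≤ ∑ i, σ.D i a z ^ 2 := Finset.sum_nonneg fun _ _ => sq_nonneg _
        have h4 : ss σ (fun i => σ.D i a z) z = σ.Γ a a z := rfl
        linarith
      · have := s2.lo fun i => τ.D i b z
        have h3 : 0 ≤ ∑ i, τ.D i b z ^ 2 := Finset.sum_nonneg fun _ _ => sq_nonneg _
        have h4 : ss τ (fun i => τ.D i b z) z = τ.Γ b b z := rfl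
        linarith
    · rw [h0 z hz hs]
      simp
  obtain ⟨y5, y6, y7, y8⟩ := y4
  rw [Q8.dens_sm, hT]
  simp only [Q8.dens, MA, coA]
  unfold sqd
  linarith

end Vale.Agent.P088.R2.H747.SW
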