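import Vale.Agent.P088.R2.H747.S.SemW2
import Mathlib.Geometry.Manifold.PartitionOfUnity

/-!
# Weighted `L²` methods: the weighted estimate of zone A, data smooth near the support of `χ` only
-/

open MeasureTheory Set Filter
open scoped ContDiff Topology Manifold

noncomputable section

namespace Vale.Agent.P088.R2.H747.SW

open Vale.Agent.P088.R2.H961.GW Vale.Agent.P088.R2.H644 Vale.Agent.P088.R2.H960.W

variable {E ι κ : Type*} [NormedAddCommGroup E] [NormedSpace ℝ E] [Fintype ι] [Fintype κ]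

/-- A test function of `Ω` which agrees with `a` near `U ∩ S`. -/
theorem ext_te [FiniteDimensional ℝ E] {U Ω S : Set E} {a : E → ℝ} (hΩ : IsOpen Ω)
    (ha : Te U a) (hS : IsClosed S) (hSU : U ∩ S ⊆ Ω) :
    ∃ a₁, Te Ω a₁ ∧ ∀ z ∈ U ∩ S, a₁ =ᶠ[𝓝 z] a := by
  have hK : IsCompact (tsupport a ∩ S) := ha.cpt.inter_right hS
  have hKΩ : tsupport a ∩ S ⊆ interior Ω := by
    rw [hΩ.interior_eq]
    exact fun z hz => hSU ⟨ha.2.2 hz.1, hz.2⟩
  obtain ⟨V, hV, hKV, hVΩ, hVc⟩ := exists_open_between_and_isCompact_closure hK hΩ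
    (by rwa [hΩ.interior_eq] at hKΩ)
  obtain ⟨f, f1, f2, -⟩ := exists_contMDiffMap_one_nhds_of_subset_interior (n := (⊤ : ℕ∞))
    (I := 𝓘(ℝ, E)) (s := tsupport a ∩ S) (t := V) hK.isClosed (by rwa [hV.interior_eq])
  have fs : ContDiff ℝ ∞ (f : E → ℝ) := by
    have := f.contMDiff
    rw [contMDiff_iff_contDiff] at this
    exact this
  refine ⟨fun z => f z * a z, ?_, ?_⟩
  · refine te_of hΩ (K := closure V) hVc hVΩ ((fs.mul ha.1).contDiffOn) fun z hz => ?_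
    rw [f2 z fun h => hz (subset_closure h), zero_mul]
  · intro z hz
    by_cases hza : z ∈ tsupport a
    · have h1 := (eventually_nhdsSet_iff_forall.1 f1) z ⟨hza, hz.2⟩
      filter_upwards [h1] with w hw
      rw [hw, one_mul]
    · filter_upwards [(isClosed_tsupport a).isOpen_compl.mem_nhds hza] with w hw
      rw [image_eq_zero_of_notMem_tsupport hw, mul_zero]

section pw

variable {σ : Sl E ι} {τ : Sl E κ} {v v₁ v₂ W a b a₁ b₁ : E → ℝ} {q : ι → ι → E → ℝ} {z : E}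

omit [Fintype ι] in
theorem XX_loc (h : a₁ =ᶠ[𝓝 z] a) (i : ι) : XX σ W a₁ i z = XX σ W a i z := by
  unfold XX
  rw [D_congr_nhds σ h i, h.eq_of_nhds]

omit [Fintype ι] in
theorem YY_loc (h : a₁ =ᶠ[𝓝 z] a) (i : ι) : YY σ W a₁ i z = YY σ W a i z := by
  unfold YY
  rw [D_congr_nhds σ h i, h.eq_of_nhds]

theorem sd_loc (h : a₁ =ᶠ[𝓝 z] a) (h' : b₁ =ᶠ[𝓝 z] b) :
    sd σ τ v₁ v₂ W a₁ b₁ z = sd σ τ v₁ v₂ W a b z := by
  have e1 : Ch.XX σ W a₁ z = Ch.XX σ W a z := funext fun i => XX_loc h i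
  have e2 : Ch.XX τ W b₁ z = Ch.XX τ W b z := funext fun i => XX_loc h' i
  unfold sd
  rw [qs_qf, qs_qf, e1, e2, h.eq_of_nhds, h'.eq_of_nhds]

theorem qE_loc (h : a₁ =ᶠ[𝓝 z] a) : qE σ q W a₁ z = qE σ q W a z := by
  unfold qE
  have e : (fun i => σ.D i a₁ z) = fun i => σ.D i a z := funext fun i => D_congr_nhds σ h i
  rw [e, h.eq_of_nhds]

theorem Ys_loc (h : a₁ =ᶠ[𝓝 z] a) : Ys σ W a₁ z = Ys σ W a z := by
  unfold Ys
  exact Finset.sum_congr rfl fun i _ => by rw [YY_loc h i]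

theorem P_loc (h : a₁ =ᶠ[𝓝 z] a) : σ.P v W a₁ z = σ.P v W a z :=
  (P_congr_nhds v W h).eq_of_nhds

end pw

/-! ## Integrals -/

variable [MeasureSpace E] [FiniteDimensional ℝ E] [BorelSpace E]
  [(volume : Measure E).IsAddHaarMeasure]

section integral

variable {σ : Sl E ι} {τ : Sl E κ} {U Ω S : Set E} {θ : E → ℝ}
  {v v₁ v₂ W f g h a b m χ : E → ℝ} {c : ι → E → ℝ} {c' : κ → E → ℝ} {q : ι → ι → E → ℝ}
  {q' : κ → κ → E → ℝ} {η K : ℝ}

omit [FiniteDimensional ℝ E] [(volume : Measure E).IsAddHaarMeasure] in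
/-- Change of the function and of the set. -/
theorem In_loc (hU : IsOpen U) (hΩ : IsOpen Ω) (h : Ω ⊆ U) {f g : E → ℝ}
    (h1 : ∀ z ∈ Ω, f z = g z) (h2 : ∀ z ∈ U, z ∉ Ω → g z = 0) : In Ω θ f = In U θ g := by
  rw [← In_res h hU.measurableSet h2]
  exact setIntegral_congr_fun hΩ.measurableSet fun z hz => by rw [h1 z hz]

/-- **The weighted estimate of zone A.**  All data are smooth on `Ω`, and `χ` vanishes off a closed
set `S` with `U ∩ S ⊆ Ω`. -/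
theorem semW (ok : σ.Ok U θ) (ot : τ.Ok U θ) (hv₁ : Sm U v₁) (hv₂ : Sm U v₂) (hW : Sm U W)
    (ha : Te U a) (hb : Te U b) (hχ : Sm U χ) (hΩ : IsOpen Ω) (h : Ω ⊆ U) (hS : IsClosed S)
    (hSU : U ∩ S ⊆ Ω) (h0 : ∀ z ∈ U, z ∉ S → χ z = 0)
    (hc : ∀ i, Sm Ω (c i)) (hc' : ∀ i, Sm Ω (c' i))
    (hq : ∀ i j, Sm Ω (q i j)) (hy : ∀ i j z, q i j z = q j i z) (hq' : ∀ i j, Sm Ω (q' i j))
    (hy' : ∀ i j z, q' i j z = q' j i z) (hm : Sm Ω m)
    {κ₀ : ℝ} (hκ : 0 < κ₀) (hη : 0 < η) (hη1 : η ≤ 1 / 200) (hηκ : η ≤ κ₀)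
    (hK : 0 ≤ K) (hηK : 2 * K * η ≤ 1)
    (sm₁ : ∀ z ∈ Ω, SmQ σ W q m c v₁ η K z) (sm₂ : ∀ z ∈ Ω, SmQ τ W q' m c' v₂ η K z)
    (cert : ∀ z ∈ Ω, ∀ (A : ι → ℝ) (B : κ → ℝ) (x y : ℝ),
      4 * (qq q A z + qq q' B z) - η * (qq q (fun i => σ.D i W z) z * x ^ 2 +
        qq q' (fun i => τ.D i W z) z * y ^ 2) ≤
      8 * (Ch.TH σ τ W z A B + tc σ c W z A + tc τ c' W z B) + qf σ τ v₁ v₂ W z A B x y) :
    2 * (In U θ (fun z => χ z ^ 2 * qq q (fun i => XX σ W a i z) z) +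
        In U θ (fun z => χ z ^ 2 * qq q' (fun i => XX τ W b i z) z)) +
      1 / 3 * (In U θ (fun z => χ z ^ 2 * qE σ q W a z) +
        In U θ (fun z => χ z ^ 2 * qE τ q' W b z)) -
      κ₀ * (In U θ (fun z => χ z ^ 2 * σ.P v₁ W a z ^ 2) +
        In U θ (fun z => χ z ^ 2 * τ.P v₂ W b z ^ 2)) -
      3 / η * (In U θ (fun z => qq q (fun i => σ.D i χ z) z * a z ^ 2) +
        In U θ (fun z => qq q' (fun i => τ.D i χ z) z * b z ^ 2)) -
      16 * η * (In U θ (fun z => ro m z * (∑ i, σ.D i χ z ^ 2) * (∑ i, σ.D i W z ^ 2) * a z ^ 2) +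
        In U θ (fun z => ro m z * (∑ i, τ.D i χ z ^ 2) * (∑ i, τ.D i W z ^ 2) * b z ^ 2) +
        (In U θ (fun z => ro m z * (∑ i, σ.D i χ z ^ 2) * Ys σ W a z) +
          In U θ (fun z => ro m z * (∑ i, τ.D i χ z ^ 2) * Ys τ W b z))) ≤
      In U θ (fun z => χ z ^ 2 * sd σ τ v₁ v₂ W a b z) := by
  obtain ⟨a₁, ta, ea⟩ := ext_te hΩ ha hS hSU
  obtain ⟨b₁, tb, eb⟩ := ext_te hΩ hb hS hSU
  have hU := ok.op
  have ok' := Ok_mono ok hΩ h
  have ot' := Ok_mono ot hΩ h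
  have main := semW0 ok' ot' (hv₁.mono h) (hv₂.mono h) (hW.mono h) ta tb (hχ.mono h) hc hc' hq hy
    hq' hy' hm hκ hη hη1 hηκ hK hηK sm₁ sm₂ cert
  have nS : ∀ z ∈ U, z ∉ Ω → z ∉ S := fun z hz hn hs => hn (hSU ⟨hz, hs⟩)
  have D0 : ∀ z ∈ U, z ∉ S → χ =ᶠ[𝓝 z] fun _ => (0 : ℝ) := by
    intro z hz hs
    filter_upwards [hU.mem_nhds hz, hS.isOpen_compl.mem_nhds hs] with w hw hw'
    exact h0 w hw hw'
  have DX : ∀ {ζ : Sl E ι}, ∀ z ∈ U, z ∉ S → ∀ i, ζ.D i χ z = 0 := fun z hz hs i => by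
    rw [D_congr_nhds _ (D0 z hz hs) i, D_const]
  have DY : ∀ {ζ : Sl E κ}, ∀ z ∈ U, z ∉ S → ∀ i, ζ.D i χ z = 0 := fun z hz hs i => by
    rw [D_congr_nhds _ (D0 z hz hs) i, D_const]
  have c1 : In Ω θ (fun z => χ z ^ 2 * qq q (fun i => XX σ W a₁ i z) z) =
      In U θ (fun z => χ z ^ 2 * qq q (fun i => XX σ W a i z) z) := by
    refine In_loc hU hΩ h (fun z hz => ?_) fun z hz hn => by rw [h0 z hz (nS z hz hn)]; ring
    by_cases hs : z ∈ S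
    · have e := ea z ⟨h hz, hs⟩
      simp only [XX_loc (σ := σ) (W := W) e]
    · rw [h0 z (h hz) hs]; ring
  have c2 : In Ω θ (fun z => χ z ^ 2 * qq q' (fun i => XX τ W b₁ i z) z) =
      In U θ (fun z => χ z ^ 2 * qq q' (fun i => XX τ W b i z) z) := by
    refine In_loc hU hΩ h (fun z hz => ?_) fun z hz hn => by rw [h0 z hz (nS z hz hn)]; ring
    by_cases hs : z ∈ S
    · have e := eb z ⟨h hz, hs⟩
      simp only [XX_loc (σ := τ) (W := W) e]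
    · rw [h0 z (h hz) hs]; ring
  have c3 : In Ω θ (fun z => χ z ^ 2 * qE σ q W a₁ z) =
      In U θ (fun z => χ z ^ 2 * qE σ q W a z) := by
    refine In_loc hU hΩ h (fun z hz => ?_) fun z hz hn => by rw [h0 z hz (nS z hz hn)]; ring
    by_cases hs : z ∈ S
    · rw [qE_loc (ea z ⟨h hz, hs⟩)]
    · rw [h0 z (h hz) hs]; ring
  have c4 : In Ω θ (fun z => χ z ^ 2 * qE τ q' W b₁ z) =
      In U θ (fun z => χ z ^ 2 * qE τ q' W b z) := by
    refine In_loc hU hΩ h (fun z hz => ?_) fun z hz hn => by rw [h0 z hz (nS z hz hn)]; ring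
    by_cases hs : z ∈ S
    · rw [qE_loc (eb z ⟨h hz, hs⟩)]
    · rw [h0 z (h hz) hs]; ring
  have c5 : In Ω θ (fun z => χ z ^ 2 * σ.P v₁ W a₁ z ^ 2) =
      In U θ (fun z => χ z ^ 2 * σ.P v₁ W a z ^ 2) := by
    refine In_loc hU hΩ h (fun z hz => ?_) fun z hz hn => by rw [h0 z hz (nS z hz hn)]; ring
    by_cases hs : z ∈ S
    · rw [P_loc (ea z ⟨h hz, hs⟩)]
    · rw [h0 z (h hz) hs]; ring
  have c6 : In Ω θ (fun z => χ z ^ 2 * τ.P v₂ W b₁ z ^ 2) =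
      In U θ (fun z => χ z ^ 2 * τ.P v₂ W b z ^ 2) := by
    refine In_loc hU hΩ h (fun z hz => ?_) fun z hz hn => by rw [h0 z hz (nS z hz hn)]; ring
    by_cases hs : z ∈ S
    · rw [P_loc (eb z ⟨h hz, hs⟩)]
    · rw [h0 z (h hz) hs]; ring
  have c7 : In Ω θ (fun z => qq q (fun i => σ.D i χ z) z * a₁ z ^ 2) =
      In U θ (fun z => qq q (fun i => σ.D i χ z) z * a z ^ 2) := by
    refine In_loc hU hΩ h (fun z hz => ?_) fun z hz hn => ?_
    · by_cases hs : z ∈ S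
      · rw [(ea z ⟨h hz, hs⟩).eq_of_nhds]
      · simp only [DX z (h hz) hs]
        unfold qq; simp
    · simp only [DX z hz (nS z hz hn)]
      unfold qq; simp
  have c8 : In Ω θ (fun z => qq q' (fun i => τ.D i χ z) z * b₁ z ^ 2) =
      In U θ (fun z => qq q' (fun i => τ.D i χ z) z * b z ^ 2) := by
    refine In_loc hU hΩ h (fun z hz => ?_) fun z hz hn => ?_
    · by_cases hs : z ∈ S
      · rw [(eb z ⟨h hz, hs⟩).eq_of_nhds]
      · simp only [DY z (h hz) hs]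
        unfold qq; simp
    · simp only [DY z hz (nS z hz hn)]
      unfold qq; simp
  have c9 : In Ω θ (fun z => ro m z * (∑ i, σ.D i χ z ^ 2) * (∑ i, σ.D i W z ^ 2) * a₁ z ^ 2) =
      In U θ (fun z => ro m z * (∑ i, σ.D i χ z ^ 2) * (∑ i, σ.D i W z ^ 2) * a z ^ 2) := by
    refine In_loc hU hΩ h (fun z hz => ?_) fun z hz hn => ?_
    · by_cases hs : z ∈ S
      · rw [(ea z ⟨h hz, hs⟩).eq_of_nhds]
      · simp only [DX z (h hz) hs]; simp
    · simp only [DX z hz (nS z hz hn)]; simp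
  have c10 : In Ω θ (fun z => ro m z * (∑ i, τ.D i χ z ^ 2) * (∑ i, τ.D i W z ^ 2) * b₁ z ^ 2) =
      In U θ (fun z => ro m z * (∑ i, τ.D i χ z ^ 2) * (∑ i, τ.D i W z ^ 2) * b z ^ 2) := by
    refine In_loc hU hΩ h (fun z hz => ?_) fun z hz hn => ?_
    · by_cases hs : z ∈ S
      · rw [(eb z ⟨h hz, hs⟩).eq_of_nhds]
      · simp only [DY z (h hz) hs]; simp
    · simp only [DY z hz (nS z hz hn)]; simp
  have c11 : In Ω θ (fun z => ro m z * (∑ i, σ.D i χ z ^ 2) * Ys σ W a₁ z) =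
      In U θ (fun z => ro m z * (∑ i, σ.D i χ z ^ 2) * Ys σ W a z) := by
    refine In_loc hU hΩ h (fun z hz => ?_) fun z hz hn => ?_
    · by_cases hs : z ∈ S
      · rw [Ys_loc (ea z ⟨h hz, hs⟩)]
      · simp only [DX z (h hz) hs]; simp
    · simp only [DX z hz (nS z hz hn)]; simp
  have c12 : In Ω θ (fun z => ro m z * (∑ i, τ.D i χ z ^ 2) * Ys τ W b₁ z) =
      In U θ (fun z => ro m z * (∑ i, τ.D i χ z ^ 2) * Ys τ W b z) := by
    refine In_loc hU hΩ h (fun z hz => ?_) fun z hz hn => ?_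
    · by_cases hs : z ∈ S
      · rw [Ys_loc (eb z ⟨h hz, hs⟩)]
      · simp only [DY z (h hz) hs]; simp
    · simp only [DY z hz (nS z hz hn)]; simp
  have c13 : In Ω θ (fun z => χ z ^ 2 * sd σ τ v₁ v₂ W a₁ b₁ z) =
      In U θ (fun z => χ z ^ 2 * sd σ τ v₁ v₂ W a b z) := by
    refine In_loc hU hΩ h (fun z hz => ?_) fun z hz hn => by rw [h0 z hz (nS z hz hn)]; ring
    by_cases hs : z ∈ S
    · rw [sd_loc (ea z ⟨h hz, hs⟩) (eb z ⟨h hz, hs⟩)]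
    · rw [h0 z (h hz) hs]; ring
  rw [c1, c2, c3, c4, c5, c6, c7, c8, c9, c10, c11, c12, c13] at main
  exact main

end integral

end Vale.Agent.P088.R2.H747.SW
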