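import Vale.Agent.P088.R2.H747.S.Sem
import Vale.Agent.P088.R2.H960.W.Res

/-!
# Weighted `L²` methods: the estimate of zone A with a cut-off function in the form
-/

open MeasureTheory Set Filter
open scoped ContDiff Topology

noncomputable section

namespace Vale.Agent.P088.R2.H747.S

open Vale.Agent.P088.R2.H961.GW Vale.Agent.P088.R2.H644 Vale.Agent.P088.R2.H960.W

variable {E ι κ : Type*} [NormedAddCommGroup E] [NormedSpace ℝ E] [Fintype ι] [Fintype κ]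

/-- The cost of a cut-off function in one slot. -/
def cst (σ : Sl E ι) (W χ a : E → ℝ) (z : E) : ℝ :=
  12 * (σ.Γ χ χ z * σ.Γ a a z) + (3 * σ.Λ χ z ^ 2 + 12 * (σ.F W z * σ.Γ χ χ z)) * a z ^ 2

section pw

variable {σ : Sl E ι} {τ : Sl E κ} {U Ω : Set E} {θ : E → ℝ} {v v₁ v₂ W f g h a b m χ : E → ℝ}
  {c : ι → E → ℝ} {c' : κ → E → ℝ} {z : E}

theorem tcst (ok : σ.Ok U θ) (hW : Sm U W) (hχ : Sm U χ) (ha : Te U a) :
    Te U (cst σ W χ a) := by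
  have hU := ok.op
  have t1 := (ok.tG ha.sm ha).mul_left hU (ok.sG hχ hχ)
  have s1 : Sm U fun z => 3 * σ.Λ χ z ^ 2 + 12 * (σ.F W z * σ.Γ χ χ z) :=
    (contDiffOn_const.mul ((ok.sL hχ).pow 2)).add
      (contDiffOn_const.mul ((ok.sF hW).mul (ok.sG hχ hχ)))
  exact (t1.cmul hU 12).add hU ((ha.sq hU).mul_left hU s1)

/-- The weighted square of `X (χ a)`. -/
theorem mX_cut (ok : σ.Ok U θ) (W : E → ℝ) (hχ : Sm U χ) (ha : Sm U a) (hm : 0 ≤ m z)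
    (hz : z ∈ U) : 1 / 2 * (χ z ^ 2 * mX σ m W a z) -
      m z * (∑ i, σ.D i χ z ^ 2) * a z ^ 2 ≤ mX σ m W (fun z => χ z * a z) z := by
  unfold mX
  have h : ∀ i, 1 / 2 * (χ z ^ 2 * XX σ W a i z ^ 2) - σ.D i χ z ^ 2 * a z ^ 2 ≤
      XX σ W (fun z => χ z * a z) i z ^ 2 := by
    intro i
    rw [XX_mul ok W hχ ha i hz]
    nlinarith [sq_nonneg (χ z * XX σ W a i z - 2 * (a z * σ.D i χ z))]
  have h2 := Finset.sum_le_sum fun i (_ : i ∈ (Finset.univ : Finset ι)) => h i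
  rw [Finset.sum_sub_distrib, ← Finset.mul_sum, ← Finset.mul_sum, ← Finset.sum_mul] at h2
  have h3 := mul_le_mul_of_nonneg_left h2 hm
  linarith

end pw

/-! ## Integrals -/

variable [MeasureSpace E] [FiniteDimensional ℝ E] [BorelSpace E]
  [(volume : Measure E).IsAddHaarMeasure]

section integral

variable {σ : Sl E ι} {τ : Sl E κ} {U Ω S : Set E} {θ : E → ℝ}
  {v v₁ v₂ W f g h a b m χ : E → ℝ} {c : ι → E → ℝ} {c' : κ → E → ℝ} {η : ℝ}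

/-- `T` of test functions of a smaller set. -/
theorem TT_res (ok : σ.Ok U θ) (hΩ : IsOpen Ω) (h : Ω ⊆ U) (ot : τ.Ok U θ) (hv₁ : Sm U v₁)
    (hv₂ : Sm U v₂) (hW : Sm U W) (ha : Te Ω a) (hb : Te Ω b) :
    TT σ τ Ω θ v₁ v₂ W a b = TT σ τ U θ v₁ v₂ W a b ∧
      SQ σ τ Ω θ v₁ v₂ W a b = SQ σ τ U θ v₁ v₂ W a b := by
  have ok' := Ok_mono ok hΩ h
  have ot' := Ok_mono ot hΩ h
  have s1 := hv₁.mono h
  have s2 := hv₂.mono h
  have sW := hW.mono h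
  have mU := ok.op.measurableSet
  have q1 := ok'.tQ s1 sW ha
  have q2 := ot'.tQ s2 sW hb
  have p1 := ok'.tP s1 sW ha
  have p2 := ot'.tP s2 sW hb
  have p3 := ot'.tP s2 sW ha
  have p4 := ok'.tP s1 sW hb
  constructor
  · unfold TT
    rw [In_res_te h mU ((q1.add hΩ q2).sq hΩ), In_res_te h mU ((p3.sub hΩ p4).sq hΩ)]
  · unfold SQ
    rw [In_res_te h mU (p1.sq hΩ), In_res_te h mU (p2.sq hΩ), In_res_te h mU (p3.sq hΩ),
      In_res_te h mU (p4.sq hΩ)]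

/-- The square of `P (χ a)`. -/
theorem P_cut (ok : σ.Ok U θ) (p : Psd σ U) (hv : Sm U v) (hW : Sm U W) (hχ : Sm U χ)
    (ha : Te U a) : In U θ (fun z => σ.P v W (fun z => χ z * a z) z ^ 2) ≤
      2 * In U θ (fun z => χ z ^ 2 * σ.P v W a z ^ 2) + 2 * In U θ (cst σ W χ a) := by
  have hU := ok.op
  have t1 : Te U fun z => χ z ^ 2 * σ.P v W a z ^ 2 :=
    ((ok.tP hv hW ha).sq hU).mul_left hU (hχ.pow 2)
  have t2 := tcst ok hW hχ ha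
  rw [← In_cmul, ← In_cmul, ← In_add hU ok.ts (t1.cmul hU 2) (t2.cmul hU 2)]
  refine In_mono hU ok.tp ok.ts ((ok.tP hv hW (ha.mul_left hU hχ)).sq hU)
    ((t1.cmul hU 2).add hU (t2.cmul hU 2)) fun z hz => ?_
  rw [P_mul ok v W hχ ha.sm hz]
  have h := p.N_sq ok W χ a hz
  have e : 12 * (σ.Γ χ χ z * σ.Γ a a z) +
      (3 * σ.Λ χ z ^ 2 + 12 * (σ.F W z * σ.Γ χ χ z)) * a z ^ 2 = cst σ W χ a z := rfl
  rw [e] at h
  nlinarith [sq_nonneg (χ z * σ.P v W a z - σ.N W χ a z)]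

/-- **The estimate of zone A, with a cut-off function in the form.** -/
theorem semA_loc (ok : σ.Ok U θ) (ot : τ.Ok U θ) (hv₁ : Sm U v₁)
    (hv₂ : Sm U v₂) (h₁ : ∀ z ∈ U, ∀ k, τ.D k v₁ z = 0) (h₂ : ∀ z ∈ U, ∀ i, σ.D i v₂ z = 0)
    (hW : Sm U W) (ha : Te U a) (hb : Te U b) (p : Psd σ U) (q : Psd τ U) (hΩ : IsOpen Ω)
    (h : Ω ⊆ U) (cm : Cm σ τ Ω) (hχ : Sm U χ) (hS : IsClosed S) (hSU : U ∩ S ⊆ Ω)
    (h0 : ∀ z ∈ U, z ∉ S → χ z = 0) (hc : ∀ i, Sm Ω (c i)) (hc' : ∀ i, Sm Ω (c' i))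
    {κ₀ : ℝ} (hκ : 0 < κ₀) (hm : Sm Ω m) (hη : 0 ≤ η) (hη1 : η ≤ 1 / 200) (hηκ : η ≤ κ₀)
    (sm₁ : ∀ z ∈ Ω, Sm1 σ W m c v₁ η z) (sm₂ : ∀ z ∈ Ω, Sm1 τ W m c' v₂ η z)
    (cert : ∀ z ∈ Ω, ∀ (A : ι → ℝ) (B : κ → ℝ) (x y : ℝ),
      4 * (m z * ((∑ i, A i ^ 2) + ∑ k, B k ^ 2)) -
        η * (m z * σ.F W z * x ^ 2 + m z * τ.F W z * y ^ 2) ≤
      8 * (Ch.TH σ τ W z A B + tc σ c W z A + tc τ c' W z B) + qf σ τ v₁ v₂ W z A B x y) :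
    2 * (In Ω θ (mX σ m W fun z => χ z * a z) + In Ω θ (mX τ m W fun z => χ z * b z)) +
      1 / 3 * (In Ω θ (mE σ m W fun z => χ z * a z) + In Ω θ (mE τ m W fun z => χ z * b z)) -
      2 * κ₀ * (In U θ (fun z => χ z ^ 2 * σ.P v₁ W a z ^ 2) +
        In U θ (fun z => χ z ^ 2 * τ.P v₂ W b z ^ 2)) -
      2 * κ₀ * (In U θ (cst σ W χ a) + In U θ (cst τ W χ b)) ≤
      TT σ τ U θ v₁ v₂ W (fun z => χ z * a z) (fun z => χ z * b z) -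
        SQ σ τ U θ v₁ v₂ W (fun z => χ z * a z) (fun z => χ z * b z) := by
  have ta := Te_cut ok.op ha hχ hΩ h S hS hSU h0
  have tb := Te_cut ok.op hb hχ hΩ h S hS hSU h0
  have ok' := Ok_mono ok hΩ h
  have ot' := Ok_mono ot hΩ h
  have e := semA ok' ot' cm (hv₁.mono h) (hv₂.mono h) (fun z hz => h₁ z (h hz))
    (fun z hz => h₂ z (h hz)) (hW.mono h) ta tb hc hc' hκ hm hη hη1 hηκ sm₁ sm₂ cert
  obtain ⟨r1, r2⟩ := TT_res ok hΩ h ot hv₁ hv₂ hW ta tb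
  have mU := ok.op.measurableSet
  have p1 := (ok'.tP (hv₁.mono h) (hW.mono h) ta).sq hΩ
  have p2 := (ot'.tP (hv₂.mono h) (hW.mono h) tb).sq hΩ
  rw [r1, r2, In_res_te h mU p1, In_res_te h mU p2] at e
  have c1 := P_cut ok p hv₁ hW hχ ha
  have c2 := P_cut ot q hv₂ hW hχ hb
  have k1 := mul_le_mul_of_nonneg_left c1 hκ.le
  have k2 := mul_le_mul_of_nonneg_left c2 hκ.le
  linarith

end integral

end Vale.Agent.P088.R2.H747.S
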