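import Vale.Agent.P088.R2.H960.W.Weyl2
import Vale.Agent.P088.R2.H960.W.Cmf

/-!
# Weighted `L²` methods: from a pointwise inequality to the weighted estimate of zone A

The star density of `T` is `∑ (P_j a_k)² + 8 TH(X a, X b) + qs(a, b)`.  It is multiplied by `χ²`.
The pointwise total form is `8 (TH + tc c + tc c') + qf` on `(A, B, x, y)`.  If it dominates
`4 (q(A) + q'(B)) - η (q(DW) x² + q'(DW) y²)`, if the fields are small and if `div (q DW)` is small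
with respect to `q(DW)`, then the weighted star density without the squares dominates
`2 ∫ χ² (q(X a) + q'(X b))` and `(1/3) ∫ χ² (q(D a) + q(DW) a² + ..)`, up to `κ₀ ∫ χ² (P a)²` and
a cost where `D χ ≠ 0`.
-/

open MeasureTheory Set Filter
open scoped ContDiff Topology

noncomputable section

namespace Vale.Agent.P088.R2.H747.SW

open Vale.Agent.P088.R2.H961.GW Vale.Agent.P088.R2.H644 Vale.Agent.P088.R2.H960.W

variable {E ι κ : Type*} [NormedAddCommGroup E] [NormedSpace ℝ E] [Fintype ι] [Fintype κ]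

/-- `∑ s_ij (D_i f) A_j`. -/
def gA (σ : Sl E ι) (f : E → ℝ) (z : E) (A : ι → ℝ) : ℝ :=
  ∑ i, ∑ j, σ.s i j z * σ.D i f z * A j

/-- The quantum part of the all-star form at a point. -/
def qf (σ : Sl E ι) (τ : Sl E κ) (v₁ v₂ W : E → ℝ) (z : E) (A : ι → ℝ) (B : κ → ℝ)
    (a b : ℝ) : ℝ :=
  -(8 * (Ch.G2 σ W z * a ^ 2 + 2 * (M2 σ τ W W z * (a * b)) + Ch.G2 τ W z * b ^ 2)) -
  8 * (a * gA σ (σ.Λ W) z A + b * gA σ (τ.Λ W) z A + a * gA τ (σ.Λ W) z B +
    b * gA τ (τ.Λ W) z B) +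
  2 * (σ.Λ (σ.Λ W) z * a ^ 2 + 2 * (σ.Λ (τ.Λ W) z * (a * b)) + τ.Λ (τ.Λ W) z * b ^ 2) +
  4 * (σ.Γ W v₁ z * a ^ 2 + τ.Γ W v₂ z * b ^ 2)

theorem qs_qf (σ : Sl E ι) (τ : Sl E κ) (v₁ v₂ W a b : E → ℝ) (z : E) :
    qs σ τ v₁ v₂ W a b z = qf σ τ v₁ v₂ W z (Ch.XX σ W a z) (Ch.XX τ W b z) (a z) (b z) := by
  unfold qs qf gA
  rw [Ch.X1_eq, Ch.X1_eq, Ch.X1_eq, Ch.X1_eq]

/-- The commutator part of the star density. -/
def sd (σ : Sl E ι) (τ : Sl E κ) (v₁ v₂ W a b : E → ℝ) (z : E) : ℝ :=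
  8 * Ch.TH σ τ W z (Ch.XX σ W a z) (Ch.XX τ W b z) + qs σ τ v₁ v₂ W a b z

/-- A quadratic form with coefficients `q`. -/
def qq (q : ι → ι → E → ℝ) (A : ι → ℝ) (z : E) : ℝ := ∑ i, ∑ j, q i j z * A i * A j

/-- The bilinear form. -/
def qb (q : ι → ι → E → ℝ) (A B : ι → ℝ) (z : E) : ℝ := ∑ i, ∑ j, q i j z * A i * B j

/-- `div (q DW)`. -/
def dq (σ : Sl E ι) (q : ι → ι → E → ℝ) (W : E → ℝ) (z : E) : ℝ :=
  ∑ j, (σ.D j (fun z => ∑ i, q i j z * σ.D i W z) z + σ.k j z * ∑ i, q i j z * σ.D i W z)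

/-- `q(D a) + q(DW) a²`. -/
def qE (σ : Sl E ι) (q : ι → ι → E → ℝ) (W a : E → ℝ) (z : E) : ℝ :=
  qq q (fun i => σ.D i a z) z + qq q (fun i => σ.D i W z) z * a z ^ 2

/-- The squares of the derivatives `Y a`. -/
def Ys (σ : Sl E ι) (W a : E → ℝ) (z : E) : ℝ := ∑ i, YY σ W a i z ^ 2

/-- `m / (1 + m)`. -/
def ro (m : E → ℝ) (z : E) : ℝ := m z / (1 + m z)

/-- Smallness of the errors of one slot at a point. -/
structure SmQ (σ : Sl E ι) (W : E → ℝ) (q : ι → ι → E → ℝ) (m : E → ℝ) (c : ι → E → ℝ)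
    (v : E → ℝ) (η K : ℝ) (z : E) : Prop where
  /-- the margin -/
  m0 : 0 ≤ m z
  qm : ∀ A : ι → ℝ, m z * ∑ i, A i ^ 2 ≤ qq q A z
  /-- the size of the metric -/
  sK : ∀ A B : ι → ℝ,
    (∑ i, ∑ j, σ.s i j z * A i * B j) ^ 2 ≤ K ^ 2 * ((∑ i, A i ^ 2) * ∑ i, B i ^ 2)
  /-- the weight -/
  w1 : |dq σ q W z| ≤ η * qq q (fun i => σ.D i W z) z
  /-- the divergence of `F c` -/
  f1 : |dF σ c W z| ≤ η * qq q (fun i => σ.D i W z) z
  /-- the fields -/
  f2 : ∀ a : E → ℝ, |eC σ c v W a z| ≤ η * (m z * Ys σ W a z)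
  f3 : (1 + m z) * ∑ i, c i z ^ 2 ≤ η ^ 4 * m z ^ 2

section pw

variable {σ : Sl E ι} {τ : Sl E κ} {U Ω S : Set E} {θ : E → ℝ}
  {v v₁ v₂ W f g h a b m χ : E → ℝ} {c : ι → E → ℝ} {c' : κ → E → ℝ} {q : ι → ι → E → ℝ}
  {z : E}

omit [NormedAddCommGroup E] [NormedSpace ℝ E] in
theorem qq_sum (q : ι → ι → E → ℝ) (A B : ι → ℝ) (z : E) :
    qq q (fun i => A i - B i) z + qq q (fun i => A i + B i) z = 2 * qq q A z + 2 * qq q B z := by
  unfold qq
  simp only [Finset.mul_sum, ← Finset.sum_add_distrib]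
  exact Finset.sum_congr rfl fun i _ => Finset.sum_congr rfl fun j _ => by ring

omit [NormedAddCommGroup E] [NormedSpace ℝ E] in
theorem qq_smul (q : ι → ι → E → ℝ) (t : ℝ) (A : ι → ℝ) (z : E) :
    qq q (fun i => t * A i) z = t ^ 2 * qq q A z := by
  unfold qq
  simp only [Finset.mul_sum]
  exact Finset.sum_congr rfl fun i _ => Finset.sum_congr rfl fun j _ => by ring

/-- `q(X a) + q(Y a) = 2 q(D a) + 2 q(DW) a²`. -/
theorem XY_q (σ : Sl E ι) (q : ι → ι → E → ℝ) (W a : E → ℝ) (z : E) :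
    qq q (fun i => XX σ W a i z) z + qq q (fun i => YY σ W a i z) z = 2 * qE σ q W a z := by
  have h := qq_sum q (fun i => a z * σ.D i W z) (fun i => σ.D i a z) z
  rw [qq_smul] at h
  have e1 : (fun i => YY σ W a i z) = fun i => a z * σ.D i W z + σ.D i a z := by
    funext i; unfold YY; ring
  have e2 : (fun i => XX σ W a i z) = fun i => a z * σ.D i W z - σ.D i a z := by
    funext i; unfold XX; ring
  rw [e1, e2, h]
  unfold qE
  ring

omit [NormedAddCommGroup E] [NormedSpace ℝ E] in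
/-- Cauchy–Schwarz for a nonnegative form. -/
theorem qb_le (hq : ∀ i j, q i j z = q j i z) (hp : ∀ A : ι → ℝ, 0 ≤ qq q A z) {t : ℝ}
    (ht : 0 < t) (A B : ι → ℝ) : 2 * |qb q A B z| ≤ t * qq q A z + 1 / t * qq q B z := by
  have key : ∀ s : ℝ, qq q (fun i => s * A i + B i) z =
      s ^ 2 * qq q A z + 2 * s * qb q A B z + qq q B z := by
    intro s
    have e : qb q A B z = ∑ i, ∑ j, q i j z * B i * A j := by
      unfold qb
      rw [Finset.sum_comm]
      exact Finset.sum_congr rfl fun i _ => Finset.sum_congr rfl fun j _ => by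
        rw [hq j i]; ring
    have e2 : 2 * s * qb q A B z = s * qb q A B z + s * ∑ i, ∑ j, q i j z * B i * A j := by
      rw [← e]; ring
    rw [e2]
    unfold qq qb
    simp only [Finset.mul_sum, ← Finset.sum_add_distrib]
    exact Finset.sum_congr rfl fun i _ => Finset.sum_congr rfl fun j _ => by ring
  have h1 := hp fun i => t * A i + B i
  have h2 := hp fun i => (-t) * A i + B i
  rw [key] at h1 h2
  have ht' : t ≠ 0 := ht.ne'
  have g1 : 0 ≤ t * qq q A z + 1 / t * qq q B z + 2 * qb q A B z := by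
    have : t * qq q A z + 1 / t * qq q B z + 2 * qb q A B z =
        1 / t * (t ^ 2 * qq q A z + 2 * t * qb q A B z + qq q B z) := by field_simp; ring
    rw [this]; positivity
  have g2 : 0 ≤ t * qq q A z + 1 / t * qq q B z - 2 * qb q A B z := by
    have : t * qq q A z + 1 / t * qq q B z - 2 * qb q A B z =
        1 / t * ((-t) ^ 2 * qq q A z + 2 * (-t) * qb q A B z + qq q B z) := by
      field_simp; ring
    rw [this]; positivity
  rcases abs_cases (qb q A B z) with h | h <;> linarith [h.1]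

theorem tqq (ok : σ.Ok U θ) (hq : ∀ i j, Sm U (q i j)) {u : ι → E → ℝ} (hu : ∀ i, Te U (u i)) :
    Te U fun z => qq q (fun i => u i z) z :=
  Te.sum ok.op _ fun i _ => Te.sum ok.op _ fun j _ =>
    (hu j).mul_left ok.op ((hq i j).mul (hu i).sm)

theorem sqq (hq : ∀ i j, Sm U (q i j)) {u : ι → E → ℝ} (hu : ∀ i, Sm U (u i)) :
    Sm U fun z => qq q (fun i => u i z) z :=
  Sm.sum _ fun i _ => Sm.sum _ fun j _ => ((hq i j).mul (hu i)).mul (hu j)

theorem tqE (ok : σ.Ok U θ) (hq : ∀ i j, Sm U (q i j)) (hW : Sm U W) (ha : Te U a) :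
    Te U (qE σ q W a) :=
  (tqq ok hq fun i => ok.tD ha i).add ok.op
    ((ha.sq ok.op).mul_left ok.op (sqq hq fun i => ok.sD hW i))

theorem sdq (ok : σ.Ok U θ) (hq : ∀ i j, Sm U (q i j)) (hW : Sm U W) : Sm U (dq σ q W) := by
  have sg : ∀ j, Sm U fun z => ∑ i, q i j z * σ.D i W z := fun j =>
    Sm.sum _ fun i _ => (hq i j).mul (ok.sD hW i)
  exact Sm.sum _ fun j _ => (ok.sD (sg j) j).add ((ok.ks j).mul (sg j))

/-- The divergence with a weight. -/
theorem dq_mul (ok : σ.Ok U θ) (hq : ∀ i j, Sm U (q i j)) (hW : Sm U W) (hχ : Sm U χ)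
    (hz : z ∈ U) : dq σ (fun i j z => χ z ^ 2 * q i j z) W z =
      χ z ^ 2 * dq σ q W z + 2 * χ z * qb q (fun i => σ.D i W z) (fun j => σ.D j χ z) z := by
  have hU := ok.op
  have sg : ∀ j, Sm U fun z => ∑ i, q i j z * σ.D i W z := fun j =>
    Sm.sum _ fun i _ => (hq i j).mul (ok.sD hW i)
  have e : ∀ j, ∀ z, ∑ i, χ z ^ 2 * q i j z * σ.D i W z = χ z ^ 2 * ∑ i, q i j z * σ.D i W z := by
    intro j z
    rw [Finset.mul_sum]
    exact Finset.sum_congr rfl fun i _ => by ring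
  have e2 : qb q (fun i => σ.D i W z) (fun j => σ.D j χ z) z =
      ∑ j, (∑ i, q i j z * σ.D i W z) * σ.D j χ z := by
    unfold qb
    rw [Finset.sum_comm]
    exact Finset.sum_congr rfl fun j _ => by rw [Finset.sum_mul]
  unfold dq
  rw [e2, Finset.mul_sum, Finset.mul_sum, ← Finset.sum_add_distrib]
  refine Finset.sum_congr rfl fun j _ => ?_
  rw [D_congr σ hU (fun z _ => e j z) j hz, e j z, D_mul σ hU (hχ.pow 2) (sg j) j hz,
    D_sq σ hU hχ j hz]
  ring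

/-- The divergence of `F c` with a weight. -/
theorem dF_mul (ok : σ.Ok U θ) (hc : ∀ i, Sm U (c i)) (hW : Sm U W) (hχ : Sm U χ)
    (hz : z ∈ U) : dF σ (fun i z => χ z ^ 2 * c i z) W z =
      χ z ^ 2 * dF σ c W z + 2 * χ z * (σ.F W z * ∑ j, c j z * σ.D j χ z) := by
  have hU := ok.op
  unfold dF
  rw [Finset.mul_sum, Finset.mul_sum, Finset.mul_sum, ← Finset.sum_add_distrib]
  refine Finset.sum_congr rfl fun j _ => ?_
  rw [D_congr σ hU (g := fun z => χ z ^ 2 * (σ.F W z * c j z)) (fun z _ => by ring) j hz,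
    D_mul σ hU (hχ.pow 2) ((ok.sF hW).mul (hc j)) j hz, D_sq σ hU hχ j hz]
  ring

/-- The error density of the fields with a weight. -/
theorem eC_mul (ok : σ.Ok U θ) (hc : ∀ i, Sm U (c i)) (v W a : E → ℝ) (hχ : Sm U χ)
    (hz : z ∈ U) : eC σ (fun i z => χ z ^ 2 * c i z) v W a z =
      χ z ^ 2 * eC σ c v W a z + 2 * χ z * ((∑ i, ∑ j, σ.s i j z * σ.D i χ z *
        YY σ W a j z) * cY σ c W a z - 1 / 2 * ((∑ l, c l z * σ.D l χ z) * sYY σ W a z)) := by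
  have hU := ok.op
  have hD : ∀ i l, σ.D i (fun z => χ z ^ 2 * c l z) z =
      2 * χ z * σ.D i χ z * c l z + χ z ^ 2 * σ.D i (c l) z := by
    intro i l
    rw [D_mul σ hU (hχ.pow 2) (hc l) i hz, D_sq σ hU hχ i hz]
  have hcY : cY σ (fun i z => χ z ^ 2 * c i z) W a z = χ z ^ 2 * cY σ c W a z := by
    unfold cY
    rw [Finset.mul_sum]
    exact Finset.sum_congr rfl fun l _ => by ring
  have t1 : (∑ i, ∑ j, ∑ l, σ.s i j z * σ.D i (fun z => χ z ^ 2 * c l z) z * YY σ W a j z *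
      YY σ W a l z) = χ z ^ 2 * (∑ i, ∑ j, ∑ l, σ.s i j z * σ.D i (c l) z * YY σ W a j z *
      YY σ W a l z) + 2 * χ z * ((∑ i, ∑ j, σ.s i j z * σ.D i χ z * YY σ W a j z) *
        cY σ c W a z) := by
    have e0 : (∑ i, ∑ j, σ.s i j z * σ.D i χ z * YY σ W a j z) * cY σ c W a z =
        ∑ i, ∑ j, ∑ l, σ.s i j z * σ.D i χ z * YY σ W a j z * (c l z * YY σ W a l z) := by
      unfold cY
      rw [Finset.sum_mul]
      refine Finset.sum_congr rfl fun i _ => ?_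
      rw [Finset.sum_mul]
      refine Finset.sum_congr rfl fun j _ => ?_
      rw [Finset.mul_sum]
    rw [e0]
    simp only [Finset.mul_sum, ← Finset.sum_add_distrib]
    refine Finset.sum_congr rfl fun i _ => Finset.sum_congr rfl fun j _ =>
      Finset.sum_congr rfl fun l _ => ?_
    rw [hD i l]
    ring
  have t2 : (∑ l, (σ.D l (fun z => χ z ^ 2 * c l z) z + σ.k l z * (χ z ^ 2 * c l z))) =
      χ z ^ 2 * (∑ l, (σ.D l (c l) z + σ.k l z * c l z)) +
        2 * χ z * ∑ l, c l z * σ.D l χ z := by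
    simp only [Finset.mul_sum, ← Finset.sum_add_distrib]
    refine Finset.sum_congr rfl fun l _ => ?_
    rw [hD l l]
    ring
  have t3 : (∑ l, ∑ i, ∑ j, χ z ^ 2 * c l z * σ.D l (σ.s i j) z * YY σ W a i z *
      YY σ W a j z) = χ z ^ 2 * ∑ l, ∑ i, ∑ j, c l z * σ.D l (σ.s i j) z * YY σ W a i z *
      YY σ W a j z := by
    simp only [Finset.mul_sum]
    refine Finset.sum_congr rfl fun i _ => Finset.sum_congr rfl fun j _ =>
      Finset.sum_congr rfl fun l _ => ?_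
    ring
  have t4 : (∑ l, χ z ^ 2 * c l z * eta σ l z) = χ z ^ 2 * ∑ l, c l z * eta σ l z := by
    rw [Finset.mul_sum]
    exact Finset.sum_congr rfl fun l _ => by ring
  unfold eC
  rw [hcY, t1, t2, t3, t4]
  ring

theorem TC_mul (σ : Sl E ι) (c : ι → E → ℝ) (W : E → ℝ) (u : ι → E → ℝ) (χ : E → ℝ) (z : E) :
    TC σ (fun i z => χ z ^ 2 * c i z) W u z = χ z ^ 2 * TC σ c W u z := by
  unfold TC
  have e1 : (∑ l, χ z ^ 2 * c l z * σ.D l W z) = χ z ^ 2 * ∑ l, c l z * σ.D l W z := by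
    rw [Finset.mul_sum]; exact Finset.sum_congr rfl fun l _ => by ring
  have e2 : (∑ l, χ z ^ 2 * c l z * u l z) = χ z ^ 2 * ∑ l, c l z * u l z := by
    rw [Finset.mul_sum]; exact Finset.sum_congr rfl fun l _ => by ring
  rw [e1, e2]
  ring

theorem cY_mul (σ : Sl E ι) (c : ι → E → ℝ) (W a χ : E → ℝ) (z : E) :
    cY σ (fun i z => χ z ^ 2 * c i z) W a z = χ z ^ 2 * cY σ c W a z := by
  unfold cY
  rw [Finset.mul_sum]
  exact Finset.sum_congr rfl fun l _ => by ring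

theorem cs_sq (u w : ι → ℝ) : (∑ i, u i * w i) ^ 2 ≤ (∑ i, u i ^ 2) * ∑ i, w i ^ 2 :=
  Finset.sum_mul_sq_le_sq_mul_sq _ _ _

/-- `x y ≤ (x² + y²)/2` for absolute values of products of three factors. -/
theorem prod3 {x c g f u w : ℝ} (hg : 0 ≤ g) (hf : 0 ≤ f) (hc : c ^ 2 ≤ u * g)
    (hu : 0 ≤ u) (hw : 0 ≤ w) (hx : u ≤ w ^ 2 * x) (hx0 : 0 ≤ x) (t : ℝ) :
    2 * |t| * (f * |c|) ≤ w * (t ^ 2 * x + g) * f := by
  have h1 : |c| ≤ w * Real.sqrt (x * g) := by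
    rw [← Real.sqrt_sq_eq_abs]
    have h2 : c ^ 2 ≤ (w * Real.sqrt (x * g)) ^ 2 := by
      rw [mul_pow, Real.sq_sqrt (by positivity)]
      nlinarith [mul_le_mul_of_nonneg_right hx hg]
    exact (Real.sqrt_le_sqrt h2).trans (by rw [Real.sqrt_sq (by positivity)])
  have h3 : 2 * |t| * Real.sqrt (x * g) ≤ t ^ 2 * x + g := by
    rw [Real.sqrt_mul hx0]
    have e1 : t ^ 2 * x = (|t| * Real.sqrt x) ^ 2 := by
      rw [mul_pow, sq_abs, Real.sq_sqrt hx0]
    have e2 : g = Real.sqrt g ^ 2 := (Real.sq_sqrt hg).symm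
    nlinarith [sq_nonneg (|t| * Real.sqrt x - Real.sqrt g), Real.sqrt_nonneg g,
      Real.sqrt_nonneg x, abs_nonneg t]
  calc 2 * |t| * (f * |c|) ≤ 2 * |t| * (f * (w * Real.sqrt (x * g))) := by gcongr
    _ = w * (2 * |t| * Real.sqrt (x * g)) * f := by ring
    _ ≤ w * (t ^ 2 * x + g) * f := by gcongr

omit [NormedAddCommGroup E] [NormedSpace ℝ E] [Fintype ι] in
theorem ro_nonneg (h : 0 ≤ m z) : 0 ≤ ro m z := by unfold ro; positivity

omit [NormedAddCommGroup E] [NormedSpace ℝ E] [Fintype ι] in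
theorem ro_le_one (h : 0 ≤ m z) : ro m z ≤ 1 := by
  unfold ro
  rw [div_le_one (by positivity)]
  linarith

omit [Fintype ι] in
theorem sro (hm : Sm U m) (h : ∀ z ∈ U, 0 ≤ m z) : Sm U (ro m) :=
  hm.div (contDiffOn_const.add hm) fun z hz => by
    have := h z hz
    positivity

theorem SmQ.c2 {η K : ℝ} (s : SmQ σ W q m c v η K z) :
    ∑ i, c i z ^ 2 ≤ (η ^ 2) ^ 2 * m z * ro m z := by
  have h := s.m0
  have h1 : 0 < 1 + m z := by positivity
  have h2 := s.f3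
  unfold ro
  rw [mul_div_assoc', le_div_iff₀ h1]
  nlinarith

/-- The divergence of `F c` with a weight: the bound. -/
theorem dF_bd (ok : σ.Ok U θ) (hc : ∀ i, Sm U (c i)) (hW : Sm U W) (hχ : Sm U χ)
    (hz : z ∈ U) {η K : ℝ} (hη : 0 ≤ η) (hK : 0 ≤ K) (hηK : K * η ≤ 1)
    (s : SmQ σ W q m c v η K z) : |dF σ (fun i z => χ z ^ 2 * c i z) W z| ≤
      2 * η * (χ z ^ 2 * qq q (fun i => σ.D i W z) z) +
        η * (ro m z * (∑ i, σ.D i χ z ^ 2) * ∑ i, σ.D i W z ^ 2) := by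
  rw [dF_mul ok hc hW hχ hz]
  set G' := ∑ i, σ.D i χ z ^ 2 with hG'
  set G := ro m z * G' with hG
  set L := ∑ i, σ.D i W z ^ 2 with hL
  have G0' : 0 ≤ G' := Finset.sum_nonneg fun i _ => sq_nonneg _
  have G0 : 0 ≤ G := mul_nonneg (ro_nonneg s.m0) G0'
  have L0 : 0 ≤ L := Finset.sum_nonneg fun i _ => sq_nonneg _
  have hF : |σ.F W z| ≤ K * L := by
    have h := s.sK (fun i => σ.D i W z) fun i => σ.D i W z
    have e : σ.F W z = ∑ i, ∑ j, σ.s i j z * σ.D i W z * σ.D j W z := rfl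
    rw [← e, ← hL] at h
    exact abs_le_of_sq_le_sq (by nlinarith) (by positivity)
  have hc2 : (∑ j, c j z * σ.D j χ z) ^ 2 ≤ ((η ^ 2) ^ 2 * m z) * G := by
    have h := cs_sq (fun j => c j z) fun j => σ.D j χ z
    have h2 := mul_le_mul_of_nonneg_right s.c2 G0'
    calc _ ≤ _ := h
      _ ≤ _ := h2
      _ = _ := by rw [hG]; ring
  have c0 : 0 ≤ (η ^ 2) ^ 2 * m z := by have := s.m0; positivity
  have h3 := prod3 G0 L0 hc2 c0 (sq_nonneg η) (x := m z) le_rfl s.m0 (χ z)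
  have h1 := mul_le_mul_of_nonneg_left s.f1 (sq_nonneg (χ z))
  have hm := s.qm fun i => σ.D i W z
  rw [← hL] at hm
  have h4 : |2 * χ z * (σ.F W z * ∑ j, c j z * σ.D j χ z)| ≤
      K * (2 * |χ z| * (L * |∑ j, c j z * σ.D j χ z|)) := by
    rw [abs_mul, abs_mul, abs_mul, abs_two]
    calc 2 * |χ z| * (|σ.F W z| * |∑ j, c j z * σ.D j χ z|) ≤
        2 * |χ z| * (K * L * |∑ j, c j z * σ.D j χ z|) := by gcongr
      _ = _ := by ring
  have h5 : K * (2 * |χ z| * (L * |∑ j, c j z * σ.D j χ z|)) ≤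
      η * ((χ z ^ 2 * m z + G) * L) := by
    calc _ ≤ K * (η ^ 2 * (χ z ^ 2 * m z + G) * L) := mul_le_mul_of_nonneg_left h3 hK
      _ = (K * η) * (η * ((χ z ^ 2 * m z + G) * L)) := by ring
      _ ≤ 1 * (η * ((χ z ^ 2 * m z + G) * L)) := by
          refine mul_le_mul_of_nonneg_right hηK ?_
          have := s.m0
          positivity
      _ = _ := by ring
  have h6 : χ z ^ 2 * (m z * L) ≤ χ z ^ 2 * qq q (fun i => σ.D i W z) z :=
    mul_le_mul_of_nonneg_left hm (sq_nonneg _)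
  refine (abs_add_le _ _).trans ?_
  rw [abs_mul, abs_of_nonneg (sq_nonneg (χ z))]
  nlinarith [mul_le_mul_of_nonneg_left h6 hη]

/-- The error density of the fields with a weight: the bound. -/
theorem eC_bd' (ok : σ.Ok U θ) (hc : ∀ i, Sm U (c i)) (hχ : Sm U χ)
    (hz : z ∈ U) {η K : ℝ} (hη : 0 ≤ η) (hK : 0 ≤ K) (hηK : 2 * K * η ≤ 1)
    (s : SmQ σ W q m c v η K z) (a : E → ℝ) :
    |eC σ (fun i z => χ z ^ 2 * c i z) v W a z| ≤
      2 * η * (χ z ^ 2 * (m z * Ys σ W a z)) +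
        η * (ro m z * (∑ i, σ.D i χ z ^ 2) * Ys σ W a z) := by
  rw [eC_mul ok hc v W a hχ hz]
  set G := ∑ i, σ.D i χ z ^ 2 with hG
  set Y := Ys σ W a z with hY
  have G0 : 0 ≤ G := Finset.sum_nonneg fun i _ => sq_nonneg _
  have Y0 : 0 ≤ Y := Finset.sum_nonneg fun i _ => sq_nonneg _
  have c0 : 0 ≤ ∑ i, c i z ^ 2 := Finset.sum_nonneg fun i _ => sq_nonneg _
  have R0 := ro_nonneg s.m0
  have GR : 0 ≤ ro m z * G := mul_nonneg R0 G0
  set C := ∑ i, c i z ^ 2 with hC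
  have e1 : (∑ i, ∑ j, σ.s i j z * σ.D i χ z * YY σ W a j z) ^ 2 ≤ K ^ 2 * (G * Y) :=
    s.sK (fun i => σ.D i χ z) fun i => YY σ W a i z
  have e2 : cY σ c W a z ^ 2 ≤ C * Y := cs_sq _ _
  have e3 : (∑ l, c l z * σ.D l χ z) ^ 2 ≤ C * G := cs_sq _ _
  have e4 : |sYY σ W a z| ≤ K * Y := by
    have h := s.sK (fun i => YY σ W a i z) fun i => YY σ W a i z
    exact abs_le_of_sq_le_sq (by
      have e : sYY σ W a z = ∑ i, ∑ j, σ.s i j z * YY σ W a i z * YY σ W a j z := rfl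
      rw [e]
      calc _ ≤ _ := h
        _ = (K * Y) ^ 2 := by rw [hY]; unfold Ys; ring) (by positivity)
  have hx : C * G ≤ (η ^ 2) ^ 2 * m z * (ro m z * G) := by
    calc _ ≤ _ := mul_le_mul_of_nonneg_right s.c2 G0
      _ = _ := by ring
  have hx0 : 0 ≤ (η ^ 2) ^ 2 * m z := by have := s.m0; positivity
  -- the first product
  have p1 : |(∑ i, ∑ j, σ.s i j z * σ.D i χ z * YY σ W a j z) * cY σ c W a z| ≤
      K * (Real.sqrt (C * G) * Y) := by
    have h : ((∑ i, ∑ j, σ.s i j z * σ.D i χ z * YY σ W a j z) * cY σ c W a z) ^ 2 ≤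
        (K * (Real.sqrt (C * G) * Y)) ^ 2 := by
      rw [mul_pow, mul_pow, mul_pow, Real.sq_sqrt (by positivity)]
      calc _ ≤ K ^ 2 * (G * Y) * (C * Y) := mul_le_mul e1 e2 (sq_nonneg _) (by positivity)
        _ = _ := by ring
    exact abs_le_of_sq_le_sq h (by positivity)
  have p2 : |(∑ l, c l z * σ.D l χ z) * sYY σ W a z| ≤ K * (Real.sqrt (C * G) * Y) := by
    rw [abs_mul]
    have h : |∑ l, c l z * σ.D l χ z| ≤ Real.sqrt (C * G) := Real.abs_le_sqrt e3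
    calc _ ≤ Real.sqrt (C * G) * (K * Y) := mul_le_mul h e4 (abs_nonneg _) (by positivity)
      _ = _ := by ring
  have h3 := prod3 (c := Real.sqrt (C * G)) GR Y0 (by rwa [Real.sq_sqrt (by positivity)]) hx0
    (sq_nonneg η) (x := m z) le_rfl s.m0 (χ z)
  rw [abs_of_nonneg (Real.sqrt_nonneg _)] at h3
  have h4 : |2 * χ z * ((∑ i, ∑ j, σ.s i j z * σ.D i χ z * YY σ W a j z) * cY σ c W a z -
      1 / 2 * ((∑ l, c l z * σ.D l χ z) * sYY σ W a z))| ≤
      3 / 2 * K * (2 * |χ z| * (Y * Real.sqrt (C * G))) := by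
    rw [abs_mul, abs_mul, abs_two]
    have : |(∑ i, ∑ j, σ.s i j z * σ.D i χ z * YY σ W a j z) * cY σ c W a z -
      1 / 2 * ((∑ l, c l z * σ.D l χ z) * sYY σ W a z)| ≤
        3 / 2 * (K * (Real.sqrt (C * G) * Y)) := by
      refine (abs_sub _ _).trans ?_
      rw [abs_mul (1 / 2 : ℝ), abs_of_pos (by norm_num : (0 : ℝ) < 1 / 2)]
      linarith
    calc _ ≤ 2 * |χ z| * (3 / 2 * (K * (Real.sqrt (C * G) * Y))) := by gcongr
      _ = _ := by ring
  have h5 : 3 / 2 * K * (2 * |χ z| * (Y * Real.sqrt (C * G))) ≤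
      η * ((χ z ^ 2 * m z + ro m z * G) * Y) := by
    calc _ ≤ 3 / 2 * K * (η ^ 2 * (χ z ^ 2 * m z + ro m z * G) * Y) := by gcongr
      _ = (3 / 4 * (2 * K * η)) * (η * ((χ z ^ 2 * m z + ro m z * G) * Y)) := by ring
      _ ≤ 1 * (η * ((χ z ^ 2 * m z + ro m z * G) * Y)) := by
          refine mul_le_mul_of_nonneg_right (by linarith) ?_
          have := s.m0
          positivity
      _ = _ := by ring
  have h1 := mul_le_mul_of_nonneg_left (s.f2 a) (sq_nonneg (χ z))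
  refine (abs_add_le _ _).trans ?_
  rw [abs_mul, abs_of_nonneg (sq_nonneg (χ z))]
  rw [← hY] at h1
  nlinarith

/-- The divergence of `q DW` with a weight: the bound. -/
theorem dq_bd (ok : σ.Ok U θ) (hq : ∀ i j, Sm U (q i j)) (hy : ∀ i j z, q i j z = q j i z)
    (hW : Sm U W) (hχ : Sm U χ) (hz : z ∈ U) {η K : ℝ} (hη : 0 < η)
    (s : SmQ σ W q m c v η K z) : |dq σ (fun i j z => χ z ^ 2 * q i j z) W z| ≤
      2 * η * (χ z ^ 2 * qq q (fun i => σ.D i W z) z) +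
        1 / η * qq q (fun i => σ.D i χ z) z := by
  rw [dq_mul ok hq hW hχ hz]
  have h1 := mul_le_mul_of_nonneg_left s.w1 (sq_nonneg (χ z))
  have hp : ∀ A : ι → ℝ, 0 ≤ qq q A z := fun A =>
    (mul_nonneg s.m0 (Finset.sum_nonneg fun i _ => sq_nonneg _)).trans (s.qm A)
  have h2 := qb_le (fun i j => hy i j z) hp hη (fun i => χ z * σ.D i W z) fun j => σ.D j χ z
  rw [qq_smul] at h2
  have e : qb q (fun i => χ z * σ.D i W z) (fun j => σ.D j χ z) z =
      χ z * qb q (fun i => σ.D i W z) (fun j => σ.D j χ z) z := by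
    unfold qb
    simp only [Finset.mul_sum]
    exact Finset.sum_congr rfl fun i _ => Finset.sum_congr rfl fun j _ => by ring
  rw [e] at h2
  refine (abs_add_le _ _).trans ?_
  rw [abs_mul, abs_of_nonneg (sq_nonneg (χ z)), mul_assoc 2, abs_mul, abs_two]
  nlinarith

end pw

end Vale.Agent.P088.R2.H747.SW
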