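import Vale.Agent.P088.R2.H747.S.SemW
import Vale.Agent.P088.R2.H960.W.Res

/-!
# Weighted `L²` methods: the weighted estimate of zone A
-/

open MeasureTheory Set Filter
open scoped ContDiff Topology

noncomputable section

namespace Vale.Agent.P088.R2.H747.SW

open Vale.Agent.P088.R2.H961.GW Vale.Agent.P088.R2.H644 Vale.Agent.P088.R2.H960.W

variable {E ι κ : Type*} [NormedAddCommGroup E] [NormedSpace ℝ E] [Fintype ι] [Fintype κ]

/-- The arithmetic of one slot. -/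
theorem one_alg {η κ₀ P X E Q Y M D C L N d c : ℝ} (hη : 0 < η) (hη1 : η ≤ 1 / 200)
    (hd : -(κ₀ * P) - 16 * η * c ≤ -(8 * d)) (hc : c ≤ 2 * Q + L + 2 * M + N)
    (xe : X = E + D) (ye : Y = E - D) (hD : |D| ≤ 2 * η * Q + 1 / η * C)
    (hQ : Q ≤ E) (q1 : 0 ≤ Q) (hM : M ≤ Y) (c1 : 0 ≤ C) :
    2 * X + 1 / 3 * E - κ₀ * P - 3 / η * C - 16 * η * (L + N) ≤ 4 * X - η * Q - 8 * d := by
  obtain ⟨a1, a2⟩ := abs_le.1 hD
  have E1 : 0 ≤ E := q1.trans hQ
  have g1 : η * Q ≤ 1 / 200 * E := (mul_le_mul_of_nonneg_right hη1 q1).trans (by linarith)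
  set t := 1 / η * C with ht1
  have t1 : 0 ≤ t := by positivity
  have s1 : 3 / η * C = 3 * t := by rw [ht1]; ring
  rw [s1]
  have y1 : M ≤ 101 / 100 * E + t := by linarith
  have m1 : η * M ≤ 1 / 200 * (101 / 100 * E + t) :=
    (mul_le_mul_of_nonneg_left y1 hη.le).trans
      (mul_le_mul_of_nonneg_right hη1 (by positivity))
  have k1 : η * c ≤ 2 * (η * Q) + η * L + 2 * (η * M) + η * N := by
    have := mul_le_mul_of_nonneg_left hc hη.le
    linarith
  linarith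

/-! ## Integrals -/

variable [MeasureSpace E] [FiniteDimensional ℝ E] [BorelSpace E]
  [(volume : Measure E).IsAddHaarMeasure]

section integral

variable {σ : Sl E ι} {τ : Sl E κ} {U Ω S : Set E} {θ : E → ℝ}
  {v v₁ v₂ W f g h a b m χ : E → ℝ} {c : ι → E → ℝ} {c' : κ → E → ℝ} {q : ι → ι → E → ℝ}
  {q' : κ → κ → E → ℝ} {η K : ℝ}

/-- The energies of one slot. -/
theorem en (ok : σ.Ok U θ) (hq : ∀ i j, Sm U (q i j)) (hy : ∀ i j z, q i j z = q j i z)
    (hW : Sm U W) (hχ : Sm U χ) (ha : Te U a) :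
    In U θ (fun z => χ z ^ 2 * qq q (fun i => XX σ W a i z) z) =
      In U θ (fun z => χ z ^ 2 * qE σ q W a z) +
        In U θ (fun z => dq σ (fun i j z => χ z ^ 2 * q i j z) W z * a z ^ 2) ∧
    In U θ (fun z => χ z ^ 2 * qq q (fun i => YY σ W a i z) z) =
      In U θ (fun z => χ z ^ 2 * qE σ q W a z) -
        In U θ (fun z => dq σ (fun i j z => χ z ^ 2 * q i j z) W z * a z ^ 2) := by
  have hU := ok.op
  have hq' : ∀ i j, Sm U fun z => χ z ^ 2 * q i j z := fun i j => (hχ.pow 2).mul (hq i j)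
  have e := XY ok hW ha (q := fun i j z => χ z ^ 2 * q i j z) hq'
    (fun i j z => by rw [hy i j z])
  have tx : Te U fun z => χ z ^ 2 * qq q (fun i => XX σ W a i z) z :=
    (tqq ok hq fun i => tX ok hW ha i).mul_left hU (hχ.pow 2)
  have ty : Te U fun z => χ z ^ 2 * qq q (fun i => YY σ W a i z) z :=
    (tqq ok hq fun i => tY ok hW ha i).mul_left hU (hχ.pow 2)
  have tE : Te U fun z => χ z ^ 2 * qE σ q W a z := (tqE ok hq hW ha).mul_left hU (hχ.pow 2)
  have ee : ∀ u : ι → E → ℝ, In U θ (fun z => ∑ i, ∑ j, χ z ^ 2 * q i j z * u i z * u j z) =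
      In U θ (fun z => χ z ^ 2 * qq q (fun i => u i z) z) := fun u => by
    refine In_congr hU fun z _ => ?_
    unfold qq
    simp only [Finset.mul_sum]
    exact Finset.sum_congr rfl fun i _ => Finset.sum_congr rfl fun j _ => by ring
  have e1 : In U θ (fun z => χ z ^ 2 * qq q (fun i => XX σ W a i z) z) =
      In U θ (fun z => χ z ^ 2 * qq q (fun i => YY σ W a i z) z) +
      2 * In U θ (fun z => dq σ (fun i j z => χ z ^ 2 * q i j z) W z * a z ^ 2) := by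
    rw [← ee, ← ee]; exact e
  have e2 : In U θ (fun z => 2 * (χ z ^ 2 * qE σ q W a z)) =
      In U θ (fun z => χ z ^ 2 * qq q (fun i => XX σ W a i z) z +
        χ z ^ 2 * qq q (fun i => YY σ W a i z) z) := by
    refine In_congr hU fun z _ => ?_
    have := XY_q σ q W a z
    linear_combination (-χ z ^ 2) * this
  rw [In_cmul, In_add hU ok.ts tx ty] at e2
  constructor <;> linarith

/-- The weighted Weyl term of one slot. -/
theorem weyl_w (ok : σ.Ok U θ) (hv : Sm U v) (hW : Sm U W) (ha : Te U a) (hχ : Sm U χ)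
    (hc : ∀ i, Sm U (c i)) {κ₀ : ℝ} (hκ : 0 < κ₀) :
    -(κ₀ * In U θ (fun z => χ z ^ 2 * σ.P v W a z ^ 2)) -
      16 / κ₀ * In U θ (fun z => χ z ^ 2 * cY σ c W a z ^ 2) +
      16 * In U θ (fun z => dF σ (fun i z => χ z ^ 2 * c i z) W z * a z ^ 2) +
      8 * In U θ (eC σ (fun i z => χ z ^ 2 * c i z) v W a) ≤
      -(8 * In U θ (fun z => χ z ^ 2 * TC σ c W (XX σ W a) z)) := by
  have hU := ok.op
  have hc2 : ∀ i, Sm U fun z => χ z ^ 2 * c i z := fun i => (hχ.pow 2).mul (hc i)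
  have e1 := mult' (c := fun i z => χ z ^ 2 * c i z) ok hv hW ha hc2
  have e2 := TC_XY (c := fun i z => χ z ^ 2 * c i z) ok hW ha hc2
  have tP := ok.tP hv hW ha
  have tc := tcY ok hc hW ha
  have e3 : In U θ (TC σ (fun i z => χ z ^ 2 * c i z) W (XX σ W a)) =
      In U θ (fun z => χ z ^ 2 * TC σ c W (XX σ W a) z) :=
    In_congr hU fun z _ => TC_mul σ c W _ χ z
  have e4 : In U θ (fun z => σ.P v W a z * cY σ (fun i z => χ z ^ 2 * c i z) W a z) =
      In U θ (fun z => χ z ^ 2 * (σ.P v W a z * cY σ c W a z)) :=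
    In_congr hU fun z _ => by rw [cY_mul]; ring
  have t1 : Te U fun z => χ z ^ 2 * σ.P v W a z ^ 2 := (tP.sq hU).mul_left hU (hχ.pow 2)
  have t2 : Te U fun z => χ z ^ 2 * (σ.P v W a z * cY σ c W a z) :=
    (tc.mul_left hU tP.sm).mul_left hU (hχ.pow 2)
  have t3 : Te U fun z => χ z ^ 2 * cY σ c W a z ^ 2 := (tc.sq hU).mul_left hU (hχ.pow 2)
  have h : 0 ≤ In U θ (fun z => κ₀ * (χ z ^ 2 * σ.P v W a z ^ 2) +
      8 * (χ z ^ 2 * (σ.P v W a z * cY σ c W a z)) +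
      16 / κ₀ * (χ z ^ 2 * cY σ c W a z ^ 2)) := by
    refine In_nonneg hU ok.tp fun z _ => ?_
    have e : κ₀ * (χ z ^ 2 * σ.P v W a z ^ 2) + 8 * (χ z ^ 2 * (σ.P v W a z * cY σ c W a z)) +
      16 / κ₀ * (χ z ^ 2 * cY σ c W a z ^ 2) =
        κ₀ * (χ z * (σ.P v W a z + 4 / κ₀ * cY σ c W a z)) ^ 2 := by
      field_simp; ring
    rw [e]; positivity
  rw [In_add hU ok.ts ((t1.cmul hU κ₀).add hU (t2.cmul hU 8)) (t3.cmul hU _),
    In_add hU ok.ts (t1.cmul hU κ₀) (t2.cmul hU 8), In_cmul, In_cmul, In_cmul] at h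
  rw [← e3, e2]
  rw [e4] at e1
  linarith

/-- The estimate of one slot. -/
theorem slot_err (ok : σ.Ok U θ) (hv : Sm U v) (hW : Sm U W) (ha : Te U a) (hχ : Sm U χ)
    (hc : ∀ i, Sm U (c i)) (hq : ∀ i j, Sm U (q i j)) (hy : ∀ i j z, q i j z = q j i z)
    (hm : Sm U m) {κ₀ : ℝ} (hκ : 0 < κ₀) (hη : 0 < η) (hη1 : η ≤ 1 / 200) (hηκ : η ≤ κ₀)
    (hK : 0 ≤ K) (hηK : 2 * K * η ≤ 1) (sm : ∀ z ∈ U, SmQ σ W q m c v η K z) :
    2 * In U θ (fun z => χ z ^ 2 * qq q (fun i => XX σ W a i z) z) +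
      1 / 3 * In U θ (fun z => χ z ^ 2 * qE σ q W a z) -
      κ₀ * In U θ (fun z => χ z ^ 2 * σ.P v W a z ^ 2) -
      3 / η * In U θ (fun z => qq q (fun i => σ.D i χ z) z * a z ^ 2) -
      16 * η * (In U θ (fun z => ro m z * (∑ i, σ.D i χ z ^ 2) * (∑ i, σ.D i W z ^ 2) * a z ^ 2) +
        In U θ (fun z => ro m z * (∑ i, σ.D i χ z ^ 2) * Ys σ W a z)) ≤
      4 * In U θ (fun z => χ z ^ 2 * qq q (fun i => XX σ W a i z) z) -
      η * In U θ (fun z => χ z ^ 2 * (qq q (fun i => σ.D i W z) z * a z ^ 2)) -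
      8 * In U θ (fun z => χ z ^ 2 * TC σ c W (XX σ W a) z) := by
  have hU := ok.op
  obtain ⟨x1, y1⟩ := en ok hq hy hW hχ ha
  have w1 := weyl_w ok hv hW ha hχ hc hκ
  have s2 : Sm U fun z => χ z ^ 2 := hχ.pow 2
  have ta := ha.sq hU
  have sQ : Sm U fun z => qq q (fun i => σ.D i W z) z := sqq hq fun i => ok.sD hW i
  have tQ : Te U fun z => χ z ^ 2 * (qq q (fun i => σ.D i W z) z * a z ^ 2) :=
    (ta.mul_left hU sQ).mul_left hU s2
  have sC : Sm U fun z => qq q (fun i => σ.D i χ z) z := sqq hq fun i => ok.sD hχ i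
  have tC : Te U fun z => qq q (fun i => σ.D i χ z) z * a z ^ 2 := ta.mul_left hU sC
  have tD : Te U fun z => dq σ (fun i j z => χ z ^ 2 * q i j z) W z * a z ^ 2 :=
    ta.mul_left hU (sdq ok (fun i j => s2.mul (hq i j)) hW)
  have sG : Sm U fun z => ∑ i, σ.D i χ z ^ 2 := Sm.sum _ fun i _ => (ok.sD hχ i).pow 2
  have sL : Sm U fun z => ∑ i, σ.D i W z ^ 2 := Sm.sum _ fun i _ => (ok.sD hW i).pow 2
  have sR : Sm U (ro m) := sro hm fun z hz => (sm z hz).m0
  have tL : Te U fun z => ro m z * (∑ i, σ.D i χ z ^ 2) * (∑ i, σ.D i W z ^ 2) * a z ^ 2 :=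
    ta.mul_left hU ((sR.mul sG).mul sL)
  have tYs : Te U (Ys σ W a) := Te.sum hU _ fun i _ => (tY ok hW ha i).sq hU
  have tN : Te U fun z => ro m z * (∑ i, σ.D i χ z ^ 2) * Ys σ W a z :=
    tYs.mul_left hU (sR.mul sG)
  have tM : Te U fun z => χ z ^ 2 * (m z * Ys σ W a z) := (tYs.mul_left hU hm).mul_left hU s2
  have tyq : Te U fun z => χ z ^ 2 * qq q (fun i => YY σ W a i z) z :=
    (tqq ok hq fun i => tY ok hW ha i).mul_left hU s2
  have tE : Te U fun z => χ z ^ 2 * qE σ q W a z := (tqE ok hq hW ha).mul_left hU s2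
  have hc2 : ∀ i, Sm U fun z => χ z ^ 2 * c i z := fun i => s2.mul (hc i)
  have hp : ∀ z ∈ U, ∀ A : ι → ℝ, 0 ≤ qq q A z := fun z hz A =>
    (mul_nonneg (sm z hz).m0 (Finset.sum_nonneg fun i _ => sq_nonneg _)).trans ((sm z hz).qm A)
  -- the bounds
  have hD : |In U θ (fun z => dq σ (fun i j z => χ z ^ 2 * q i j z) W z * a z ^ 2)| ≤
      2 * η * In U θ (fun z => χ z ^ 2 * (qq q (fun i => σ.D i W z) z * a z ^ 2)) +
      1 / η * In U θ (fun z => qq q (fun i => σ.D i χ z) z * a z ^ 2) := by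
    have hb : ∀ z ∈ U, |dq σ (fun i j z => χ z ^ 2 * q i j z) W z * a z ^ 2| ≤
        2 * η * (χ z ^ 2 * (qq q (fun i => σ.D i W z) z * a z ^ 2)) +
        1 / η * (qq q (fun i => σ.D i χ z) z * a z ^ 2) := by
      intro z hz
      rw [abs_mul, abs_of_nonneg (sq_nonneg (a z))]
      have := mul_le_mul_of_nonneg_right (dq_bd ok hq hy hW hχ hz hη (sm z hz))
        (sq_nonneg (a z))
      linarith
    rw [← In_cmul, ← In_cmul, ← In_add hU ok.ts (tQ.cmul hU _) (tC.cmul hU _), abs_le, ← In_neg]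
    constructor
    · exact In_mono hU ok.tp ok.ts (((tQ.cmul hU _).add hU (tC.cmul hU _)).neg hU) tD
        fun z hz => (abs_le.1 (hb z hz)).1
    · exact In_mono hU ok.tp ok.ts tD ((tQ.cmul hU _).add hU (tC.cmul hU _))
        fun z hz => (abs_le.1 (hb z hz)).2
  have hF : -(2 * η * In U θ (fun z => χ z ^ 2 * (qq q (fun i => σ.D i W z) z * a z ^ 2)) +
      η * In U θ (fun z => ro m z * (∑ i, σ.D i χ z ^ 2) * (∑ i, σ.D i W z ^ 2) * a z ^ 2)) ≤
      In U θ (fun z => dF σ (fun i z => χ z ^ 2 * c i z) W z * a z ^ 2) := by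
    have sdF : Sm U (dF σ (fun i z => χ z ^ 2 * c i z) W) := Sm.sum _ fun j _ =>
      (ok.sD ((ok.sF hW).mul (hc2 j)) j).add ((ok.ks j).mul ((ok.sF hW).mul (hc2 j)))
    rw [← In_cmul, ← In_cmul, ← In_add hU ok.ts (tQ.cmul hU _) (tL.cmul hU _), ← In_neg]
    refine In_mono hU ok.tp ok.ts (((tQ.cmul hU _).add hU (tL.cmul hU _)).neg hU)
      (ta.mul_left hU sdF) fun z hz => ?_
    have h := (abs_le.1 (dF_bd ok hc hW hχ hz hη.le hK (by nlinarith) (sm z hz))).1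
    have := mul_le_mul_of_nonneg_right h (sq_nonneg (a z))
    linarith
  have hE : -(2 * η * In U θ (fun z => χ z ^ 2 * (m z * Ys σ W a z)) +
      η * In U θ (fun z => ro m z * (∑ i, σ.D i χ z ^ 2) * Ys σ W a z)) ≤
      In U θ (eC σ (fun i z => χ z ^ 2 * c i z) v W a) := by
    rw [← In_cmul, ← In_cmul, ← In_add hU ok.ts (tM.cmul hU _) (tN.cmul hU _), ← In_neg]
    refine In_mono hU ok.tp ok.ts (((tM.cmul hU _).add hU (tN.cmul hU _)).neg hU)
      (teC ok hc2 hv hW ha) fun z hz => ?_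
    exact (abs_le.1 (eC_bd' ok hc hχ hz hη.le hK hηK (sm z hz) a)).1
  have hcY : In U θ (fun z => χ z ^ 2 * cY σ c W a z ^ 2) ≤
      η ^ 4 * In U θ (fun z => χ z ^ 2 * (m z * Ys σ W a z)) := by
    rw [← In_cmul]
    refine In_mono hU ok.tp ok.ts (((tcY ok hc hW ha).sq hU).mul_left hU s2) (tM.cmul hU _)
      fun z hz => ?_
    have h1 : cY σ c W a z ^ 2 ≤ (∑ i, c i z ^ 2) * Ys σ W a z := cs_sq _ _
    have Y0 : 0 ≤ Ys σ W a z := Finset.sum_nonneg fun i _ => sq_nonneg _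
    have h0 : ∑ i, c i z ^ 2 ≤ η ^ 4 * m z := by
      have m0 := (sm z hz).m0
      calc _ ≤ _ := (sm z hz).c2
        _ ≤ (η ^ 2) ^ 2 * m z * 1 := by
            refine mul_le_mul_of_nonneg_left (ro_le_one m0) ?_
            positivity
        _ = _ := by ring
    have h2 := mul_le_mul_of_nonneg_right h0 Y0
    have h3 := mul_le_mul_of_nonneg_left (h1.trans h2) (sq_nonneg (χ z))
    linarith
  have hM : In U θ (fun z => χ z ^ 2 * (m z * Ys σ W a z)) ≤
      In U θ (fun z => χ z ^ 2 * qq q (fun i => YY σ W a i z) z) := by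
    refine In_mono hU ok.tp ok.ts tM tyq fun z hz => ?_
    exact mul_le_mul_of_nonneg_left ((sm z hz).qm _) (sq_nonneg _)
  have hQ : In U θ (fun z => χ z ^ 2 * (qq q (fun i => σ.D i W z) z * a z ^ 2)) ≤
      In U θ (fun z => χ z ^ 2 * qE σ q W a z) := by
    refine In_mono hU ok.tp ok.ts tQ tE fun z hz => ?_
    have := mul_nonneg (sq_nonneg (χ z)) (hp z hz fun i => σ.D i a z)
    unfold qE
    linarith
  have q0 : 0 ≤ In U θ (fun z => χ z ^ 2 * (qq q (fun i => σ.D i W z) z * a z ^ 2)) :=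
    In_nonneg hU ok.tp fun z hz => mul_nonneg (sq_nonneg _)
      (mul_nonneg (hp z hz _) (sq_nonneg _))
  have c0 : 0 ≤ In U θ (fun z => qq q (fun i => σ.D i χ z) z * a z ^ 2) :=
    In_nonneg hU ok.tp fun z hz => mul_nonneg (hp z hz _) (sq_nonneg _)
  have m0 : 0 ≤ In U θ (fun z => χ z ^ 2 * (m z * Ys σ W a z)) :=
    In_nonneg hU ok.tp fun z hz => mul_nonneg (sq_nonneg _) (mul_nonneg (sm z hz).m0
      (Finset.sum_nonneg fun i _ => sq_nonneg _))
  have n0 : 0 ≤ In U θ (fun z => ro m z * (∑ i, σ.D i χ z ^ 2) * Ys σ W a z) :=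
    In_nonneg hU ok.tp fun z hz => mul_nonneg (mul_nonneg (ro_nonneg (sm z hz).m0)
      (Finset.sum_nonneg fun i _ => sq_nonneg _)) (Finset.sum_nonneg fun i _ => sq_nonneg _)
  refine one_alg (c := 2 * In U θ (fun z => χ z ^ 2 * (qq q (fun i => σ.D i W z) z * a z ^ 2)) +
    In U θ (fun z => ro m z * (∑ i, σ.D i χ z ^ 2) * (∑ i, σ.D i W z ^ 2) * a z ^ 2) +
    2 * In U θ (fun z => χ z ^ 2 * (m z * Ys σ W a z)) +
    In U θ (fun z => ro m z * (∑ i, σ.D i χ z ^ 2) * Ys σ W a z)) hη hη1 ?_ le_rfl x1 y1 hD hQ q0 hM c0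
  have h4 : 16 / κ₀ * In U θ (fun z => χ z ^ 2 * cY σ c W a z ^ 2) ≤
      16 * η * In U θ (fun z => χ z ^ 2 * (m z * Ys σ W a z)) := by
    set M := In U θ (fun z => χ z ^ 2 * (m z * Ys σ W a z)) with hMd
    calc 16 / κ₀ * In U θ (fun z => χ z ^ 2 * cY σ c W a z ^ 2) ≤ 16 / κ₀ * (η ^ 4 * M) :=
          mul_le_mul_of_nonneg_left hcY (by positivity)
      _ = (η / κ₀) * η ^ 2 * (16 * η * M) := by ring
      _ ≤ 1 * 1 * (16 * η * M) := by
          have h3 : η / κ₀ ≤ 1 := (div_le_one hκ).2 hηκ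
          have h5 : η ^ 2 ≤ 1 := by nlinarith
          have h6 : 0 ≤ η / κ₀ := by positivity
          refine mul_le_mul_of_nonneg_right ?_ (by positivity)
          exact mul_le_mul h3 h5 (by positivity) zero_le_one
      _ = _ := by ring
  nlinarith

/-- **The weighted estimate of zone A**, all data smooth on `U`. -/
theorem semW0 (ok : σ.Ok U θ) (ot : τ.Ok U θ) (hv₁ : Sm U v₁) (hv₂ : Sm U v₂) (hW : Sm U W)
    (ha : Te U a) (hb : Te U b) (hχ : Sm U χ) (hc : ∀ i, Sm U (c i)) (hc' : ∀ i, Sm U (c' i))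
    (hq : ∀ i j, Sm U (q i j)) (hy : ∀ i j z, q i j z = q j i z) (hq' : ∀ i j, Sm U (q' i j))
    (hy' : ∀ i j z, q' i j z = q' j i z) (hm : Sm U m)
    {κ₀ : ℝ} (hκ : 0 < κ₀) (hη : 0 < η) (hη1 : η ≤ 1 / 200) (hηκ : η ≤ κ₀)
    (hK : 0 ≤ K) (hηK : 2 * K * η ≤ 1)
    (sm₁ : ∀ z ∈ U, SmQ σ W q m c v₁ η K z) (sm₂ : ∀ z ∈ U, SmQ τ W q' m c' v₂ η K z)
    (cert : ∀ z ∈ U, ∀ (A : ι → ℝ) (B : κ → ℝ) (x y : ℝ),
      4 * (qq q A z + qq q' B z) - η * (qq q (fun i => σ.D i W z) z * x ^ 2 +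
        qq q' (fun i => τ.D i W z) z * y ^ 2) ≤
      8 * (Ch.TH σ τ W z A B + tc σ c W z A + tc τ c' W z B) + qf σ τ v₁ v₂ W z A B x y) :
    2 * (In U θ (fun z => χ z ^ 2 * qq q (fun i => XX σ W a i z) z) +
        In U θ (fun z => χ z ^ 2 * qq q' (fun i => XX τ W b i z) z)) +
      1 / 3 * (In U θ (fun z => χ z ^ 2 * qE σ q W a z) +
        In U θ (fun z => χ z ^ 2 * qE τ q' W b z)) -
      κ₀ * (In U θ (fun z => χ z ^ 2 * σ.P v₁ W a z ^ 2) +
        In U θ (fun z => χ z ^ 2 * τ.P v₂ W b z ^ 2)) -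
      3 / η * (In U θ (fun z => qq q (fun i => σ.D i χ z) z * a z ^ 2) +
        In U θ (fun z => qq q' (fun i => τ.D i χ z) z * b z ^ 2)) -
      16 * η * (In U θ (fun z => ro m z * (∑ i, σ.D i χ z ^ 2) * (∑ i, σ.D i W z ^ 2) * a z ^ 2) +
        In U θ (fun z => ro m z * (∑ i, τ.D i χ z ^ 2) * (∑ i, τ.D i W z ^ 2) * b z ^ 2) +
        (In U θ (fun z => ro m z * (∑ i, σ.D i χ z ^ 2) * Ys σ W a z) +
          In U θ (fun z => ro m z * (∑ i, τ.D i χ z ^ 2) * Ys τ W b z))) ≤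
      In U θ (fun z => χ z ^ 2 * sd σ τ v₁ v₂ W a b z) := by
  have hU := ok.op
  have s2 : Sm U fun z => χ z ^ 2 := hχ.pow 2
  have tT := Ch.tHH ok ot hW ha hb
  have tTH : Te U fun z => Ch.TH σ τ W z (Ch.XX σ W a z) (Ch.XX τ W b z) := by
    refine te_of hU (ha.cpt.union hb.cpt) (union_subset ha.2.2 hb.2.2) ?_ ?_
    · refine tT.sm.congr fun z hz => ?_
      exact Ch.TH_XX ok ot hW ha.sm hb.sm hz
    · intro z hz
      have ea : ∀ i, Ch.XX σ W a z i = 0 := fun i => by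
        have h := (tX ok hW ha i).zero (z := z)
        by_contra hne
        have hza : z ∉ tsupport a := fun h' => hz (Or.inl h')
        have h1 : a z = 0 := ha.zero hza
        have h2 : σ.D i a z = 0 := by
          have : a =ᶠ[𝓝 z] fun _ => (0 : ℝ) := by
            filter_upwards [(isClosed_tsupport a).isOpen_compl.mem_nhds hza] with w hw using
              image_eq_zero_of_notMem_tsupport hw
          rw [D_congr_nhds σ this i, D_const]
        apply hne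
        unfold Ch.XX
        rw [h1, h2]; ring
      have eb : ∀ i, Ch.XX τ W b z i = 0 := fun i => by
        have hza : z ∉ tsupport b := fun h' => hz (Or.inr h')
        have h1 : b z = 0 := hb.zero hza
        have h2 : τ.D i b z = 0 := by
          have : b =ᶠ[𝓝 z] fun _ => (0 : ℝ) := by
            filter_upwards [(isClosed_tsupport b).isOpen_compl.mem_nhds hza] with w hw using
              image_eq_zero_of_notMem_tsupport hw
          rw [D_congr_nhds τ this i, D_const]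
        unfold Ch.XX
        rw [h1, h2]; ring
      unfold Ch.TH
      simp [ea, eb]
  have tq := tqs ok ot hv₁ hv₂ hW ha hb
  have tsd : Te U (sd σ τ v₁ v₂ W a b) := (tTH.cmul hU 8).add hU tq
  have t1 := tTC (c := c) ok hc hW fun i => tX ok hW ha i
  have t2 := tTC (c := c') ot hc' hW fun i => tX ot hW hb i
  have tqx1 := (tqq ok hq fun i => tX ok hW ha i).mul_left hU s2
  have tqx2 := (tqq ot hq' fun i => tX ot hW hb i).mul_left hU s2
  have sQ1 : Sm U fun z => qq q (fun i => σ.D i W z) z := sqq hq fun i => ok.sD hW i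
  have sQ2 : Sm U fun z => qq q' (fun i => τ.D i W z) z := sqq hq' fun i => ot.sD hW i
  have tQ1 : Te U fun z => χ z ^ 2 * (qq q (fun i => σ.D i W z) z * a z ^ 2) :=
    ((ha.sq hU).mul_left hU sQ1).mul_left hU s2
  have tQ2 : Te U fun z => χ z ^ 2 * (qq q' (fun i => τ.D i W z) z * b z ^ 2) :=
    ((hb.sq hU).mul_left hU sQ2).mul_left hU s2
  -- the total form
  have ttot : Te U fun z => χ z ^ 2 * sd σ τ v₁ v₂ W a b z := tsd.mul_left hU s2
  have tt1 : Te U fun z => χ z ^ 2 * TC σ c W (XX σ W a) z := t1.mul_left hU s2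
  have tt2 : Te U fun z => χ z ^ 2 * TC τ c' W (XX τ W b) z := t2.mul_left hU s2
  have key : 4 * (In U θ (fun z => χ z ^ 2 * qq q (fun i => XX σ W a i z) z) +
        In U θ (fun z => χ z ^ 2 * qq q' (fun i => XX τ W b i z) z)) -
      η * (In U θ (fun z => χ z ^ 2 * (qq q (fun i => σ.D i W z) z * a z ^ 2)) +
        In U θ (fun z => χ z ^ 2 * (qq q' (fun i => τ.D i W z) z * b z ^ 2))) ≤
      In U θ (fun z => χ z ^ 2 * sd σ τ v₁ v₂ W a b z) +
        8 * (In U θ (fun z => χ z ^ 2 * TC σ c W (XX σ W a) z) +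
          In U θ (fun z => χ z ^ 2 * TC τ c' W (XX τ W b) z)) := by
    rw [← In_add hU ok.ts tqx1 tqx2, ← In_add hU ok.ts tQ1 tQ2, ← In_add hU ok.ts tt1 tt2,
      ← In_cmul, ← In_cmul, ← In_cmul,
      ← In_sub hU ok.ts ((tqx1.add hU tqx2).cmul hU 4) ((tQ1.add hU tQ2).cmul hU η),
      ← In_add hU ok.ts ttot ((tt1.add hU tt2).cmul hU 8)]
    refine In_mono hU ok.tp ok.ts (((tqx1.add hU tqx2).cmul hU 4).sub hU
      ((tQ1.add hU tQ2).cmul hU η)) (ttot.add hU ((tt1.add hU tt2).cmul hU 8)) fun z hz => ?_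
    have h := cert z hz (Ch.XX σ W a z) (Ch.XX τ W b z) (a z) (b z)
    rw [← qs_qf] at h
    have h2 := mul_le_mul_of_nonneg_left h (sq_nonneg (χ z))
    unfold sd
    have e1 : tc σ c W z (Ch.XX σ W a z) = TC σ c W (XX σ W a) z := rfl
    have e2 : tc τ c' W z (Ch.XX τ W b z) = TC τ c' W (XX τ W b) z := rfl
    have e3 : qq q (Ch.XX σ W a z) z = qq q (fun i => XX σ W a i z) z := rfl
    have e4 : qq q' (Ch.XX τ W b z) z = qq q' (fun i => XX τ W b i z) z := rfl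
    rw [e1, e2, e3, e4] at h2
    linarith
  have f1 := slot_err ok hv₁ hW ha hχ hc hq hy hm hκ hη hη1 hηκ hK hηK sm₁
  have f2 := slot_err ot hv₂ hW hb hχ hc' hq' hy' hm hκ hη hη1 hηκ hK hηK sm₂
  linarith

end integral

end Vale.Agent.P088.R2.H747.SW
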